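import Mathlib

/-! Elementary model: Young symmetrizers acting on functions on a finite symmetric group. -/

namespace Vale.Agent.P197

open Equiv Finset

set_option linter.unusedSectionVars false

variable {D : Type} [Fintype D] [DecidableEq D]

/-- Permutations preserving a labelling. -/
def stab (l : D → ℕ) : Finset (Perm D) := univ.filter (fun g => ∀ d, l (g d) = l d)

lemma mem_stab {l : D → ℕ} {g : Perm D} : g ∈ stab l ↔ ∀ d, l (g d) = l d := by
  unfold stab
  rw [Finset.mem_filter]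
  simp

/-- The sign as a real number. -/
def sg (g : Perm D) : ℝ := ((Perm.sign g : ℤ) : ℝ)

@[simp] lemma sg_one : sg (1 : Perm D) = 1 := by simp [sg]

lemma sg_mul (g h : Perm D) : sg (g * h) = sg g * sg h := by simp [sg]

@[simp] lemma sg_inv (g : Perm D) : sg g⁻¹ = sg g := by simp [sg]

lemma sg_swap {a b : D} (h : a ≠ b) : sg (swap a b) = -1 := by simp [sg, Perm.sign_swap h]

lemma sg_mul_self (g : Perm D) : sg g * sg g = 1 := by
  have h := sg_mul g g⁻¹
  rw [mul_inv_cancel, sg_one, sg_inv] at h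
  exact h.symm

lemma sg_ne_zero (g : Perm D) : sg g ≠ 0 := by
  intro h
  have := sg_mul_self g
  rw [h] at this
  simp at this

lemma one_mem_stab (l : D → ℕ) : (1 : Perm D) ∈ stab l := by simp [mem_stab]

lemma mul_mem_stab {l : D → ℕ} {g h : Perm D} (hg : g ∈ stab l) (hh : h ∈ stab l) :
    g * h ∈ stab l := by
  rw [mem_stab] at *
  intro d
  rw [Perm.mul_apply, hg, hh]

lemma inv_mem_stab {l : D → ℕ} {g : Perm D} (hg : g ∈ stab l) : g⁻¹ ∈ stab l := by
  rw [mem_stab] at *
  intro d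
  rw [← hg (g⁻¹ d)]
  simp

lemma swap_mem_stab {l : D → ℕ} {a b : D} (h : l a = l b) : swap a b ∈ stab l := by
  rw [mem_stab]
  intro d
  rw [swap_apply_def]
  split_ifs with h1 h2
  · rw [h1, h]
  · rw [h2, h]
  · rfl

lemma sum_stab_mul_left {l : D → ℕ} {h : Perm D} (hh : h ∈ stab l) (f : Perm D → ℝ) :
    ∑ g ∈ stab l, f (h * g) = ∑ g ∈ stab l, f g := by
  refine Finset.sum_bij' (fun g _ => h * g) (fun g _ => h⁻¹ * g) ?_ ?_ ?_ ?_ ?_
  · intro g hg; exact mul_mem_stab hh hg
  · intro g hg; exact mul_mem_stab (inv_mem_stab hh) hg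
  · intro g _; group
  · intro g _; group
  · intro g _; rfl

lemma sum_stab_mul_right {l : D → ℕ} {h : Perm D} (hh : h ∈ stab l) (f : Perm D → ℝ) :
    ∑ g ∈ stab l, f (g * h) = ∑ g ∈ stab l, f g := by
  refine Finset.sum_bij' (fun g _ => g * h) (fun g _ => g * h⁻¹) ?_ ?_ ?_ ?_ ?_
  · intro g hg; exact mul_mem_stab hg hh
  · intro g hg; exact mul_mem_stab hg (inv_mem_stab hh)
  · intro g _; group
  · intro g _; group
  · intro g _; rfl

lemma sum_stab_inv (l : D → ℕ) (f : Perm D → ℝ) :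
    ∑ g ∈ stab l, f g⁻¹ = ∑ g ∈ stab l, f g := by
  refine Finset.sum_bij' (fun g _ => g⁻¹) (fun g _ => g⁻¹) ?_ ?_ ?_ ?_ ?_
  · intro g hg; exact inv_mem_stab hg
  · intro g hg; exact inv_mem_stab hg
  · intro g _; group
  · intro g _; group
  · intro g _; rfl

lemma card_stab_pos (l : D → ℕ) : (0 : ℝ) < (stab l).card := by
  have : 0 < (stab l).card := Finset.card_pos.mpr ⟨1, one_mem_stab l⟩
  exact_mod_cast this

lemma stab_eq_singleton {l : D → ℕ} (hl : Function.Injective l) : stab l = {1} := by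
  ext g
  rw [mem_stab, Finset.mem_singleton]
  constructor
  · intro h
    ext d
    exact hl (h d)
  · rintro rfl d
    rfl

/-- Induction over the permutations preserving a labelling, by swaps inside blocks. -/
lemma stab_induction {l : D → ℕ} (Q : Perm D → Prop) (h1 : Q 1)
    (hs : ∀ a b g, a ≠ b → l a = l b → g ∈ stab l → Q g → Q (swap a b * g)) :
    ∀ g ∈ stab l, Q g := by
  intro g
  induction hn : g.support.card using Nat.strong_induction_on generalizing g with
  | _ n ih =>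
    intro hg
    by_cases h : g = 1
    · rw [h]; exact h1
    · obtain ⟨x, hx⟩ : ∃ x, g x ≠ x := by
        by_contra hc
        push Not at hc
        exact h (Equiv.ext hc)
      have hl : l x = l (g x) := (mem_stab.mp hg x).symm
      have hmem : swap x (g x) * g ∈ stab l := mul_mem_stab (swap_mem_stab hl) hg
      have hlt := Perm.card_support_swap_mul hx
      have := hs x (g x) _ hx.symm hl hmem (ih _ (hn ▸ hlt) _ rfl hmem)
      rwa [← mul_assoc, swap_mul_self, one_mul] at this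

/-- Row coordinate. -/
def rowF (T : D → ℕ × ℕ) (d : D) : ℕ := (T d).1
/-- Column coordinate. -/
def colF (T : D → ℕ × ℕ) (d : D) : ℕ := (T d).2
/-- Antidiagonal coordinate. -/
def diagF (T : D → ℕ × ℕ) (d : D) : ℕ := (T d).1 + (T d).2

/-- The Young symmetrizer of a filling, paired with a function on the group. -/
def ys (τ : D → ℕ × ℕ) (φ : Perm D → ℝ) : ℝ :=
  ∑ p ∈ stab (rowF τ), ∑ q ∈ stab (colF τ), sg q * φ (p * q)

/-- The antisymmetrization over the blocks of `c` of the basis vector `a`, evaluated at `s`. -/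
def altD (c a s : D → ℕ) : ℝ := ∑ q ∈ stab c, if (∀ d, s (q d) = a d) then sg q else 0

/-- The tensor of the column polytabloid and the row polytabloid. -/
def vv (T x : D → ℕ × ℕ) : ℝ :=
  altD (colF T) (diagF T) (rowF x) * altD (rowF T) (diagF T) (colF x)

/-- The symmetrizer of `τ` does not kill the tensor of `T`. -/
def Supp (T τ : D → ℕ × ℕ) : Prop := ∃ x : D → ℕ × ℕ, ys τ (fun g => vv T (x ∘ g)) ≠ 0

/-- `τ` is a bijection onto the set of cells `S`. -/
def IsFill (τ : D → ℕ × ℕ) (S : Finset (ℕ × ℕ)) : Prop :=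
  Function.Injective τ ∧ ∀ c, c ∈ S ↔ ∃ d, τ d = c

lemma altD_ne_zero {c a s : D → ℕ} (h : altD c a s ≠ 0) :
    ∃ q ∈ stab c, ∀ d, s (q d) = a d := by
  by_contra hc
  apply h
  unfold altD
  refine Finset.sum_eq_zero fun q hq => ?_
  rw [if_neg]
  intro h'
  exact hc ⟨q, hq, h'⟩

lemma altD_eq_sg {c a s : D → ℕ} (hinj : ∀ d d', c d = c d' → a d = a d' → d = d')
    {q : Perm D} (hq : q ∈ stab c) (hs : ∀ d, s (q d) = a d) : altD c a s = sg q := by
  unfold altD
  rw [Finset.sum_eq_single q]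
  · rw [if_pos hs]
  · intro q' hq' hne
    rw [if_neg]
    intro hs'
    apply hne
    have : ∀ e, q⁻¹ e = q'⁻¹ e := by
      intro e
      apply hinj
      · rw [mem_stab.mp (inv_mem_stab hq), mem_stab.mp (inv_mem_stab hq')]
      · rw [← hs, ← hs']
        simp
    have h2 : q⁻¹ = q'⁻¹ := Equiv.ext this
    exact (inv_injective h2).symm
  · intro h
    exact absurd hq h

lemma exists_stab_of_forall {c a s : D → ℕ} (hinj : ∀ d d', c d = c d' → a d = a d' → d = d')
    (h : ∀ d, ∃ d', c d' = c d ∧ s d' = a d) : ∃ q ∈ stab c, ∀ d, s (q d) = a d := by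
  choose f hf1 hf2 using h
  have hf : Function.Injective f := by
    intro d d' hd
    apply hinj
    · rw [← hf1 d, ← hf1 d', hd]
    · rw [← hf2 d, ← hf2 d', hd]
  refine ⟨Equiv.ofBijective f (Finite.injective_iff_bijective.mp hf), ?_, ?_⟩
  · rw [mem_stab]
    intro d
    exact hf1 d
  · intro d
    exact hf2 d

lemma altD_comp {c a s : D → ℕ} {p : Perm D} (hp : p ∈ stab c) :
    altD c a (s ∘ p) = sg p * altD c a s := by
  unfold altD
  rw [← sum_stab_mul_left (inv_mem_stab hp), Finset.mul_sum]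
  refine Finset.sum_congr rfl fun q _ => ?_
  have e : ∀ d, (s ∘ p) ((p⁻¹ * q) d) = s (q d) := by intro d; simp
  simp only [e, sg_mul, sg_inv]
  split_ifs <;> simp

lemma preserve_of_sum (P : D → Prop) [DecidablePred P] (u : D → ℝ)
    (hpos : ∀ d, P d → 0 < u d) (hneg : ∀ d, ¬ P d → u d < 0) (g : Perm D)
    (h : ∑ d, (if P d then u (g d) else 0) = ∑ d, (if P d then u d else 0)) :
    ∀ d, P (g d) ↔ P d := by
  have h2 : ∑ d, (if P (g d) then u (g d) else 0) = ∑ d, (if P d then u d else 0) :=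
    Equiv.sum_comp g (fun d => if P d then u d else 0)
  have h3 : ∑ d, ((if P (g d) then u (g d) else 0) - (if P d then u (g d) else 0)) = 0 := by
    rw [Finset.sum_sub_distrib, h, h2, sub_self]
  have h4 : ∀ d ∈ (univ : Finset D),
      0 ≤ (if P (g d) then u (g d) else 0) - (if P d then u (g d) else 0) := by
    intro d _
    by_cases ha : P (g d) <;> by_cases hb : P d <;> simp only [ha, hb, if_true, if_false]
    · simp
    · have := hpos _ ha; linarith
    · have := hneg _ ha; linarith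
    · simp
  intro d
  have h5 := (Finset.sum_eq_zero_iff_of_nonneg h4).mp h3 d (mem_univ d)
  by_cases ha : P (g d) <;> by_cases hb : P d <;> simp only [ha, hb, if_true, if_false] at h5 ⊢
  · have := hpos _ ha; linarith
  · have := hneg _ ha; linarith

lemma band_unique (T : D → ℕ × ℕ) (thr : ℕ) (A : D → Prop) {q p : Perm D}
    (hq : q ∈ stab (colF T)) (hp : p ∈ stab (rowF T))
    (hAq : ∀ d, A (q d) ↔ thr ≤ diagF T d) (hAp : ∀ d, A (p d) ↔ thr ≤ diagF T d) :
    ∀ d, A d ↔ thr ≤ diagF T d := by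
  classical
  have key : ∀ d, thr ≤ diagF T (q d) ↔ thr ≤ diagF T d := by
    apply preserve_of_sum (fun d => thr ≤ diagF T d) (fun d => (diagF T d : ℝ) - thr + 1 / 2)
    · intro d hd
      have : (thr : ℝ) ≤ diagF T d := by exact_mod_cast hd
      linarith
    · intro d hd
      have : diagF T d + 1 ≤ thr := by omega
      have : (diagF T d : ℝ) + 1 ≤ thr := by exact_mod_cast this
      linarith
    · have e1 : ∑ d, (if thr ≤ diagF T d then (rowF T (q d) : ℝ) else 0)
          = ∑ d, (if A d then (rowF T d : ℝ) else 0) := by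
        rw [← Equiv.sum_comp q (fun d => if A d then (rowF T d : ℝ) else 0)]
        refine Finset.sum_congr rfl fun d _ => ?_
        simp only [hAq]
      have e2 : ∑ d, (if thr ≤ diagF T d then (rowF T d : ℝ) else 0)
          = ∑ d, (if A d then (rowF T d : ℝ) else 0) := by
        rw [← Equiv.sum_comp p (fun d => if A d then (rowF T d : ℝ) else 0)]
        refine Finset.sum_congr rfl fun d _ => ?_
        simp only [hAp, mem_stab.mp hp d]
      have e3 : ∀ g : Perm D, g ∈ stab (colF T) →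
          ∑ d, (if thr ≤ diagF T d then (diagF T (g d) : ℝ) - thr + 1 / 2 else 0)
          = ∑ d, (if thr ≤ diagF T d then (rowF T (g d) : ℝ) else 0)
            + ∑ d, (if thr ≤ diagF T d then (colF T d : ℝ) - thr + 1 / 2 else 0) := by
        intro g hg
        rw [← Finset.sum_add_distrib]
        refine Finset.sum_congr rfl fun d _ => ?_
        have : diagF T (g d) = rowF T (g d) + colF T d := by
          rw [← mem_stab.mp hg d]; rfl
        rw [this]
        split_ifs
        · push_cast; ring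
        · simp
      have e4 := e3 1 (one_mem_stab _)
      simp only [Perm.one_apply] at e4
      rw [e3 q hq, e4, e1, e2]
  intro d
  have := hAq (q⁻¹ d)
  rw [← key (q⁻¹ d)] at this
  simpa using this

section Split

variable (P : D → Prop) [DecidablePred P]

lemma exists_subtypeCongr {g : Perm D} (hg : ∀ d, P (g d) ↔ P d) :
    ∃ (g1 : Perm {d // P d}) (g2 : Perm {d // ¬ P d}), g = Perm.subtypeCongr g1 g2 := by
  refine ⟨g.subtypePerm (fun d => hg d), g.subtypePerm (fun d => not_congr (hg d)), ?_⟩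
  ext d
  by_cases h : P d
  · rw [Perm.subtypeCongr.left_apply _ _ h]; rfl
  · rw [Perm.subtypeCongr.right_apply _ _ h]; rfl

lemma subtypeCongr_mem_stab {l : D → ℕ} {g1 : Perm {d // P d}} {g2 : Perm {d // ¬ P d}} :
    Perm.subtypeCongr g1 g2 ∈ stab l ↔
      g1 ∈ stab (fun d : {d // P d} => l d) ∧ g2 ∈ stab (fun d : {d // ¬ P d} => l d) := by
  simp only [mem_stab]
  constructor
  · intro h
    refine ⟨fun d => ?_, fun d => ?_⟩
    · rw [← h d, Perm.subtypeCongr.left_apply_subtype]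
    · rw [← h d, Perm.subtypeCongr.right_apply_subtype]
  · rintro ⟨h1, h2⟩ d
    by_cases h : P d
    · rw [Perm.subtypeCongr.left_apply _ _ h]; exact h1 ⟨d, h⟩
    · rw [Perm.subtypeCongr.right_apply _ _ h]; exact h2 ⟨d, h⟩

lemma subtypeCongr_mul (g1 h1 : Perm {d // P d}) (g2 h2 : Perm {d // ¬ P d}) :
    Perm.subtypeCongr g1 g2 * Perm.subtypeCongr h1 h2 = Perm.subtypeCongr (g1 * h1) (g2 * h2) :=
  ((Perm.subtypeCongrHom P).map_mul (g1, g2) (h1, h2)).symm

lemma sg_subtypeCongr (g1 : Perm {d // P d}) (g2 : Perm {d // ¬ P d}) :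
    sg (Perm.subtypeCongr g1 g2) = sg g1 * sg g2 := by
  simp [sg, Perm.sign_subtypeCongr]

lemma subtypeCongr_preserves (g1 : Perm {d // P d}) (g2 : Perm {d // ¬ P d}) (d : D) :
    P (Perm.subtypeCongr g1 g2 d) ↔ P d := by
  by_cases h : P d
  · rw [Perm.subtypeCongr.left_apply _ _ h]
    simp only [h, iff_true]
    exact (g1 ⟨d, h⟩).2
  · rw [Perm.subtypeCongr.right_apply _ _ h]
    simp only [h, iff_false]
    exact (g2 ⟨d, h⟩).2

lemma sum_stab_split (l : D → ℕ) (ψ : Perm D → ℝ)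
    (hψ : ∀ g ∈ stab l, ψ g ≠ 0 → ∀ d, P (g d) ↔ P d) :
    ∑ g ∈ stab l, ψ g = ∑ g1 ∈ stab (fun d : {d // P d} => l d),
      ∑ g2 ∈ stab (fun d : {d // ¬ P d} => l d), ψ (Perm.subtypeCongr g1 g2) := by
  rw [← Finset.sum_product']
  symm
  refine Finset.sum_of_injOn (fun z => Perm.subtypeCongr z.1 z.2) ?_ ?_ ?_ ?_
  · intro z _ w _ h
    exact Perm.subtypeCongrHom_injective P h
  · intro z hz
    rw [Finset.mem_coe, Finset.mem_product] at hz
    rw [Finset.mem_coe, subtypeCongr_mem_stab]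
    exact hz
  · intro g hg hne
    by_contra h0
    apply hne
    obtain ⟨g1, g2, rfl⟩ := exists_subtypeCongr P (hψ g hg h0)
    refine ⟨(g1, g2), ?_, rfl⟩
    rw [Finset.mem_coe, Finset.mem_product]
    exact (subtypeCongr_mem_stab P).mp hg
  · intro z _
    rfl

lemma bottom_preserve (τ : D → ℕ × ℕ)
    (hbot : ∀ d d', colF τ d = colF τ d' → P d → ¬ P d' → rowF τ d' < rowF τ d)
    {p q : Perm D} (hp : p ∈ stab (rowF τ)) (hq : q ∈ stab (colF τ))
    (h : ∀ d, P ((p * q) d) ↔ P d) : ∀ d, P (q d) ↔ P d := by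
  let θ : D → ℕ := fun d =>
    (univ.filter (fun d' => colF τ d' = colF τ d ∧ ¬ P d')).sup (fun d' => rowF τ d' + 1)
  have hθ1 : ∀ d, P d → θ d ≤ rowF τ d := by
    intro d hd
    apply Finset.sup_le
    intro d' hd'
    rw [Finset.mem_filter] at hd'
    exact hbot d d' hd'.2.1.symm hd hd'.2.2
  have hθ2 : ∀ d, ¬ P d → rowF τ d + 1 ≤ θ d := by
    intro d hd
    apply Finset.le_sup (f := fun d' => rowF τ d' + 1)
    rw [Finset.mem_filter]
    exact ⟨mem_univ _, rfl, hd⟩
  have hθ3 : ∀ d, θ (q d) = θ d := by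
    intro d
    simp only [θ, mem_stab.mp hq d]
  apply preserve_of_sum P (fun d => (rowF τ d : ℝ) - θ d + 1 / 2)
  · intro d hd
    have : (θ d : ℝ) ≤ rowF τ d := by exact_mod_cast hθ1 d hd
    linarith
  · intro d hd
    have : (rowF τ d : ℝ) + 1 ≤ θ d := by exact_mod_cast hθ2 d hd
    linarith
  · have e1 : ∑ d, (if P d then (rowF τ (q d) : ℝ) else 0)
        = ∑ d, (if P d then (rowF τ d : ℝ) else 0) := by
      rw [← Equiv.sum_comp (p * q) (fun d => if P d then (rowF τ d : ℝ) else 0)]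
      refine Finset.sum_congr rfl fun d _ => ?_
      simp only [h d]
      rw [Perm.mul_apply, mem_stab.mp hp]
    have e3 : ∀ g : Perm D, (∀ d, θ (g d) = θ d) →
        ∑ d, (if P d then (rowF τ (g d) : ℝ) - θ (g d) + 1 / 2 else 0)
        = ∑ d, (if P d then (rowF τ (g d) : ℝ) else 0)
          + ∑ d, (if P d then - (θ d : ℝ) + 1 / 2 else 0) := by
      intro g hg
      rw [← Finset.sum_add_distrib]
      refine Finset.sum_congr rfl fun d _ => ?_
      rw [hg]
      split_ifs
      · ring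
      · simp
    have e4 := e3 1 (fun _ => rfl)
    simp only [Perm.one_apply] at e4
    rw [e3 q hθ3, e4, e1]

lemma ys_split (τ : D → ℕ × ℕ)
    (hbot : ∀ d d', colF τ d = colF τ d' → P d → ¬ P d' → rowF τ d' < rowF τ d)
    (φ : Perm D → ℝ) (φ1 : Perm {d // P d} → ℝ) (φ2 : Perm {d // ¬ P d} → ℝ)
    (h1 : ∀ g, φ g ≠ 0 → ∀ d, P (g d) ↔ P d)
    (h2 : ∀ g1 g2, φ (Perm.subtypeCongr g1 g2) = φ1 g1 * φ2 g2) :
    ys τ φ = ys (fun d : {d // P d} => τ d) φ1 * ys (fun d : {d // ¬ P d} => τ d) φ2 := by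
  unfold ys
  have key : ∀ p ∈ stab (rowF τ), ∀ q ∈ stab (colF τ), sg q * φ (p * q) ≠ 0 →
      ∀ d, P (q d) ↔ P d := by
    intro p hp q hq hne
    exact bottom_preserve P τ hbot hp hq (h1 _ (right_ne_zero_of_mul hne))
  rw [sum_stab_split P (rowF τ)]
  · rw [Finset.sum_mul_sum]
    refine Finset.sum_congr rfl fun p1 hp1 => Finset.sum_congr rfl fun p2 hp2 => ?_
    rw [sum_stab_split P (colF τ) _ (key _ ((subtypeCongr_mem_stab P).mpr ⟨hp1, hp2⟩)),
      Finset.sum_mul_sum]
    refine Finset.sum_congr rfl fun q1 _ => Finset.sum_congr rfl fun q2 _ => ?_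
    rw [subtypeCongr_mul, h2, sg_subtypeCongr]
    ring
  · intro p hp hne d
    obtain ⟨q, hq, hq0⟩ := Finset.exists_ne_zero_of_sum_ne_zero hne
    have a1 := key p hp q hq hq0 (q⁻¹ d)
    have a2 := h1 _ (right_ne_zero_of_mul hq0) (q⁻¹ d)
    simp only [Perm.mul_apply, Perm.coe_inv, Equiv.apply_symm_apply] at a1 a2
    rw [a2, a1]

lemma altD_split (c a s : D → ℕ) (thr : ℕ) (ha : ∀ d, P d ↔ thr ≤ a d)
    (hs : ∀ d, P d ↔ thr ≤ s d) :
    altD c a s = altD (fun d : {d // P d} => c d) (fun d => a d) (fun d => s d) *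
      altD (fun d : {d // ¬ P d} => c d) (fun d => a d) (fun d => s d) := by
  unfold altD
  rw [sum_stab_split P c, Finset.sum_mul_sum]
  · refine Finset.sum_congr rfl fun q1 _ => Finset.sum_congr rfl fun q2 _ => ?_
    have e : (∀ d, s (Perm.subtypeCongr q1 q2 d) = a d) ↔
        (∀ d : {d // P d}, s (q1 d) = a d) ∧ (∀ d : {d // ¬ P d}, s (q2 d) = a d) := by
      constructor
      · intro h
        refine ⟨fun d => ?_, fun d => ?_⟩
        · rw [← h d, Perm.subtypeCongr.left_apply_subtype]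
        · rw [← h d, Perm.subtypeCongr.right_apply_subtype]
      · rintro ⟨h1, h2⟩ d
        by_cases h : P d
        · rw [Perm.subtypeCongr.left_apply _ _ h]; exact h1 ⟨d, h⟩
        · rw [Perm.subtypeCongr.right_apply _ _ h]; exact h2 ⟨d, h⟩
    rw [sg_subtypeCongr]
    by_cases h1 : ∀ d : {d // P d}, s (q1 d) = a d <;>
      by_cases h2 : ∀ d : {d // ¬ P d}, s (q2 d) = a d
    · rw [if_pos (e.mpr ⟨h1, h2⟩), if_pos h1, if_pos h2]
    · rw [if_neg (fun h => h2 (e.mp h).2), if_neg h2, mul_zero]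
    · rw [if_neg (fun h => h1 (e.mp h).1), if_neg h1, zero_mul]
    · rw [if_neg (fun h => h1 (e.mp h).1), if_neg h1, zero_mul]
  · intro q _ hne d
    have h : ∀ d, s (q d) = a d := by
      by_contra hc
      exact hne (if_neg hc)
    rw [hs, h, ha]

end Split

lemma labels_of_ys_ne_zero {T τ x : D → ℕ × ℕ} (h : ys τ (fun g => vv T (x ∘ g)) ≠ 0) (d : D) :
    (∃ d', rowF x d = diagF T d') ∧ (∃ d', colF x d = diagF T d') := by
  obtain ⟨p, _, h1⟩ := Finset.exists_ne_zero_of_sum_ne_zero h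
  obtain ⟨q, _, h2⟩ := Finset.exists_ne_zero_of_sum_ne_zero h1
  have h3 := right_ne_zero_of_mul h2
  obtain ⟨q1, _, h4⟩ := altD_ne_zero (left_ne_zero_of_mul h3)
  obtain ⟨q2, _, h5⟩ := altD_ne_zero (right_ne_zero_of_mul h3)
  constructor
  · refine ⟨(p * q * q1)⁻¹ d, ?_⟩
    rw [← h4]
    simp [rowF]
  · refine ⟨(p * q * q2)⁻¹ d, ?_⟩
    rw [← h5]
    simp [colF]

/-- Separation of an outer band. -/
theorem supp_comb (T τ : D → ℕ × ℕ) (thr : ℕ)
    (hbot : ∀ d d', colF τ d = colF τ d' → thr ≤ diagF T d → ¬ thr ≤ diagF T d' →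
      rowF τ d' < rowF τ d)
    (h1 : Supp (fun d : {d // thr ≤ diagF T d} => T d) (fun d => τ d))
    (h2 : Supp (fun d : {d // ¬ thr ≤ diagF T d} => T d) (fun d => τ d)) : Supp T τ := by
  obtain ⟨x1, hx1⟩ := h1
  obtain ⟨x2, hx2⟩ := h2
  let x : D → ℕ × ℕ := fun d => if h : thr ≤ diagF T d then x1 ⟨d, h⟩ else x2 ⟨d, h⟩
  have ex1 : ∀ d : {d // thr ≤ diagF T d}, x d = x1 d := fun d => dif_pos d.2
  have ex2 : ∀ d : {d // ¬ thr ≤ diagF T d}, x d = x2 d := fun d => dif_neg d.2
  have hr : ∀ d, thr ≤ diagF T d ↔ thr ≤ rowF x d := by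
    intro d
    by_cases h : thr ≤ diagF T d
    · obtain ⟨d', hd'⟩ := (labels_of_ys_ne_zero hx1 ⟨d, h⟩).1
      have : rowF x d = diagF T d' := by rw [rowF, ex1 ⟨d, h⟩]; exact hd'
      rw [this]
      exact ⟨fun _ => d'.2, fun _ => h⟩
    · obtain ⟨d', hd'⟩ := (labels_of_ys_ne_zero hx2 ⟨d, h⟩).1
      have : rowF x d = diagF T d' := by rw [rowF, ex2 ⟨d, h⟩]; exact hd'
      rw [this]
      exact ⟨fun h' => absurd h' h, fun h' => absurd h' d'.2⟩
  have hc : ∀ d, thr ≤ diagF T d ↔ thr ≤ colF x d := by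
    intro d
    by_cases h : thr ≤ diagF T d
    · obtain ⟨d', hd'⟩ := (labels_of_ys_ne_zero hx1 ⟨d, h⟩).2
      have : colF x d = diagF T d' := by rw [colF, ex1 ⟨d, h⟩]; exact hd'
      rw [this]
      exact ⟨fun _ => d'.2, fun _ => h⟩
    · obtain ⟨d', hd'⟩ := (labels_of_ys_ne_zero hx2 ⟨d, h⟩).2
      have : colF x d = diagF T d' := by rw [colF, ex2 ⟨d, h⟩]; exact hd'
      rw [this]
      exact ⟨fun h' => absurd h' h, fun h' => absurd h' d'.2⟩
  refine ⟨x, ?_⟩
  rw [ys_split (fun d => thr ≤ diagF T d) τ hbot _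
    (fun g => vv (fun d : {d // thr ≤ diagF T d} => T d) (x1 ∘ g))
    (fun g => vv (fun d : {d // ¬ thr ≤ diagF T d} => T d) (x2 ∘ g))]
  · exact mul_ne_zero hx1 hx2
  · intro g hg
    obtain ⟨q, hq, h4⟩ := altD_ne_zero (left_ne_zero_of_mul hg)
    obtain ⟨p, hp, h5⟩ := altD_ne_zero (right_ne_zero_of_mul hg)
    apply band_unique T thr (fun d => thr ≤ diagF T (g d)) hq hp
    · intro d
      rw [hr, ← h4 d]
      rfl
    · intro d
      rw [hc, ← h5 d]
      rfl
  · intro g1 g2
    unfold vv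
    have hp := subtypeCongr_preserves (fun d => thr ≤ diagF T d) g1 g2
    rw [altD_split (fun d => thr ≤ diagF T d) (colF T) (diagF T) _ thr (fun _ => Iff.rfl),
      altD_split (fun d => thr ≤ diagF T d) (rowF T) (diagF T) _ thr (fun _ => Iff.rfl)]
    · have a1 : (fun d : {d // thr ≤ diagF T d} => rowF (x ∘ Perm.subtypeCongr g1 g2) d)
          = rowF (x1 ∘ g1) := by
        funext d
        simp only [rowF, Function.comp_apply, Perm.subtypeCongr.left_apply_subtype, ex1]
      have a2 : (fun d : {d // thr ≤ diagF T d} => colF (x ∘ Perm.subtypeCongr g1 g2) d)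
          = colF (x1 ∘ g1) := by
        funext d
        simp only [colF, Function.comp_apply, Perm.subtypeCongr.left_apply_subtype, ex1]
      have a3 : (fun d : {d // ¬ thr ≤ diagF T d} => rowF (x ∘ Perm.subtypeCongr g1 g2) d)
          = rowF (x2 ∘ g2) := by
        funext d
        simp only [rowF, Function.comp_apply, Perm.subtypeCongr.right_apply_subtype, ex2]
      have a4 : (fun d : {d // ¬ thr ≤ diagF T d} => colF (x ∘ Perm.subtypeCongr g1 g2) d)
          = colF (x2 ∘ g2) := by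
        funext d
        simp only [colF, Function.comp_apply, Perm.subtypeCongr.right_apply_subtype, ex2]
      rw [a1, a2, a3, a4]
      have b : ∀ a b c d : ℝ, a * b * (c * d) = a * c * (b * d) := by intros; ring
      exact b _ _ _ _
    · intro d
      rw [← hp d, hc]
      rfl
    · intro d
      rw [← hp d, hr]
      rfl

end Vale.Agent.P197
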