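import Mathlib

/-! Specht modules and Kronecker coefficients of the symmetric group `Equiv.Perm (Fin n)`. -/

namespace Vale.Agent.P197

open Equiv

/-- A tableau of shape `μ` with entries `Fin n`: a bijection sending each entry to its cell. -/
abbrev Tableau (n : ℕ) (μ : YoungDiagram) : Type := Fin n ≃ μ.cells

/-- The row of each entry. This function is the tabloid of `t`. -/
def rowOf {n : ℕ} {μ : YoungDiagram} (t : Tableau n μ) (k : Fin n) : ℕ := (t k).1.1

/-- The column of each entry. -/
def colOf {n : ℕ} {μ : YoungDiagram} (t : Tableau n μ) (k : Fin n) : ℕ := (t k).1.2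

/-- The complex permutation representation of `S_n` whose basis is the set of all row
assignments `x : Fin n → ℕ`, with `g` sending the basis vector `x` to `x ∘ g⁻¹`. -/
noncomputable def tabloidRep (n : ℕ) :
    Representation ℂ (Perm (Fin n)) ((Fin n → ℕ) →₀ ℂ) where
  toFun g := Finsupp.lmapDomain ℂ ℂ (fun x => x ∘ ⇑g⁻¹)
  map_one' := by
    ext x y
    simp
  map_mul' g h := by
    ext x y
    simp [Function.comp_assoc]

/-- The column group of a tableau. -/
def columnGroup {n : ℕ} {μ : YoungDiagram} (t : Tableau n μ) : Finset (Perm (Fin n)) :=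
  Finset.univ.filter (fun q => ∀ k, colOf t (q k) = colOf t k)

theorem mem_columnGroup {n : ℕ} {μ : YoungDiagram} (t : Tableau n μ) (q : Perm (Fin n)) :
    q ∈ columnGroup t ↔ ∀ k, colOf t (q k) = colOf t k := by
  unfold columnGroup
  rw [Finset.mem_filter]
  simp

/-- The polytabloid `e_t = ∑_{q ∈ C(t)} sgn(q) q{t}`. -/
noncomputable def polytabloid {n : ℕ} {μ : YoungDiagram} (t : Tableau n μ) :
    (Fin n → ℕ) →₀ ℂ :=
  ∑ q ∈ columnGroup t, ((Perm.sign q : ℤ) : ℂ) • tabloidRep n q (Finsupp.single (rowOf t) 1)

theorem tabloidRep_polytabloid {n : ℕ} {μ : YoungDiagram} (g : Perm (Fin n)) (t : Tableau n μ) :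
    tabloidRep n g (polytabloid t) = polytabloid ((g⁻¹ : Perm (Fin n)).trans t) := by
  unfold polytabloid
  rw [map_sum]
  refine Finset.sum_bij' (fun q _ => g * q * g⁻¹) (fun q _ => g⁻¹ * q * g) ?_ ?_ ?_ ?_ ?_
  · intro q hq
    rw [mem_columnGroup] at hq ⊢
    intro k
    simpa [colOf] using hq (g⁻¹ k)
  · intro q hq
    rw [mem_columnGroup] at hq ⊢
    intro k
    simpa [colOf] using hq (g k)
  · intro q _
    group
  · intro q _
    group
  · intro q _
    have h1 : Finsupp.single (rowOf ((g⁻¹ : Perm (Fin n)).trans t)) (1 : ℂ)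
        = tabloidRep n g (Finsupp.single (rowOf t) 1) := by
      simp only [tabloidRep, MonoidHom.coe_mk, OneHom.coe_mk, Finsupp.lmapDomain_apply,
        Finsupp.mapDomain_single]
      rfl
    rw [map_smul, h1, ← Module.End.mul_apply, ← Module.End.mul_apply, ← map_mul, ← map_mul]
    congr 2
    · simp [mul_right_comm]
    · group

/-- The Specht module `S^μ`: the span of the polytabloids of shape `μ`. -/
noncomputable def spechtModule (n : ℕ) (μ : YoungDiagram) : Subrepresentation (tabloidRep n) where
  toSubmodule := Submodule.span ℂ (Set.range (polytabloid : Tableau n μ → _))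
  apply_mem_toSubmodule g v hv := by
    induction hv using Submodule.span_induction with
    | mem x hx =>
      obtain ⟨t, rfl⟩ := hx
      rw [tabloidRep_polytabloid]
      exact Submodule.subset_span ⟨_, rfl⟩
    | zero => simp
    | add x y _ _ hx hy => rw [map_add]; exact Submodule.add_mem _ hx hy
    | smul a x _ hx => rw [map_smul]; exact Submodule.smul_mem _ a hx

/-- The dimension of the space `Hom_G(ρ, σ)` of `G`-equivariant linear maps. -/
noncomputable def homDim {G V W : Type} [Group G] [AddCommMonoid V] [Module ℂ V]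
    [AddCommMonoid W] [Module ℂ W] (ρ : Representation ℂ G V) (σ : Representation ℂ G W) : ℕ :=
  Module.finrank ℂ (Representation.IntertwiningMap ρ σ)

/-- The Kronecker coefficient `g(l, μ, ν) = dim Hom_{S_n}(S^ν, S^l ⊗ S^μ)`. -/
noncomputable def kronecker (n : ℕ) (l μ ν : YoungDiagram) : ℕ :=
  homDim (spechtModule n ν).toRepresentation
    ((spechtModule n l).toRepresentation.tprod (spechtModule n μ).toRepresentation)

/-- The staircase diagram `ρ_m`, with rows of lengths `m, m - 1, …, 1`. -/
def staircase (m : ℕ) : YoungDiagram where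
  cells := (Finset.range m ×ˢ Finset.range m).filter (fun c => c.1 + c.2 < m)
  isLowerSet := by
    rintro ⟨a, b⟩ ⟨c, d⟩ ⟨h1, h2⟩ h
    simp only [Finset.coe_filter, Finset.mem_product, Finset.mem_range, Set.mem_ofPred_eq] at h ⊢
    simp only at h1 h2
    omega

end Vale.Agent.P197
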