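import Vale.Agent.P197.Basic

/-! Moving down the dominance order, and the positivity argument below the staircase. -/

namespace Vale.Agent.P197

open Equiv Finset

set_option linter.unusedSectionVars false

variable {D : Type} [Fintype D] [DecidableEq D]

/-- Anti-invariance under swaps inside the blocks of `l`. -/
def AntiInv (l : D → ℕ) (η : Perm D → ℝ) : Prop :=
  ∀ a b, a ≠ b → l a = l b → ∀ g, η (g * swap a b) = - η g

/-- Extension of an antisymmetrization by one more point. -/
def extd (η : Perm D → ℝ) (d : D) (S : Finset D) (g : Perm D) : ℝ :=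
  η g - ∑ b ∈ S, η (g * swap d b)

lemma extd_swap_new {l : D → ℕ} {η : Perm D → ℝ} (h : AntiInv l η) {d : D} {j : ℕ}
    (hd : l d ≠ j) {b : D} (hb : l b = j) (g : Perm D) :
    extd η d (univ.filter (fun e => l e = j)) (g * swap d b)
      = - extd η d (univ.filter (fun e => l e = j)) g := by
  unfold extd
  have hbS : b ∈ univ.filter (fun e => l e = j) := by simp [hb]
  rw [← Finset.add_sum_erase _ _ hbS, ← Finset.add_sum_erase _ _ hbS, mul_assoc, swap_mul_self,
    mul_one]
  have : ∀ e ∈ (univ.filter (fun e => l e = j)).erase b,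
      η (g * swap d b * swap d e) = - η (g * swap d e) := by
    intro e he
    simp only [mem_erase, mem_filter, mem_univ, true_and] at he
    have hdb : b ≠ d := by rintro rfl; exact hd hb
    have e1 : swap d b * swap d e = swap d e * swap e b := by
      have := mul_swap_eq_swap_mul (swap d e) e b
      rw [swap_apply_right, swap_apply_of_ne_of_ne hdb he.1.symm] at this
      exact this.symm
    rw [mul_assoc, e1, ← mul_assoc, h e b he.1 (he.2.trans hb.symm)]
  rw [Finset.sum_congr rfl this, Finset.sum_neg_distrib]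
  ring

lemma extd_anti {l : D → ℕ} {η : Perm D → ℝ} (h : AntiInv l η) {d : D} {j : ℕ}
    (hd : l d ≠ j) :
    AntiInv (Function.update l d j) (extd η d (univ.filter (fun e => l e = j))) := by
  intro a b hab hl g
  by_cases ha : a = d
  · subst ha
    rw [Function.update_self, Function.update_of_ne hab.symm] at hl
    exact extd_swap_new h hd hl.symm g
  by_cases hb : b = d
  · subst hb
    rw [Function.update_self, Function.update_of_ne hab] at hl
    rw [swap_comm]
    exact extd_swap_new h hd hl g
  rw [Function.update_of_ne ha, Function.update_of_ne hb] at hl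
  unfold extd
  have hσ := mem_stab.mp (swap_mem_stab hl)
  have e1 : ∀ e, η (g * swap a b * swap d e) = - η (g * swap d (swap a b e)) := by
    intro e
    have := mul_swap_eq_swap_mul (swap a b) d e
    rw [swap_apply_of_ne_of_ne (Ne.symm ha) (Ne.symm hb)] at this
    rw [mul_assoc, this, ← mul_assoc, h a b hab hl]
  simp only [e1]
  rw [h a b hab hl, Finset.sum_neg_distrib]
  have e2 : ∑ e ∈ univ.filter (fun e => l e = j), η (g * swap d (swap a b e))
      = ∑ e ∈ univ.filter (fun e => l e = j), η (g * swap d e) := by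
    refine Finset.sum_bij' (fun e _ => swap a b e) (fun e _ => swap a b e) ?_ ?_ ?_ ?_ ?_
    · intro e he
      simp only [mem_filter, mem_univ, true_and] at he ⊢
      rw [hσ, he]
    · intro e he
      simp only [mem_filter, mem_univ, true_and] at he ⊢
      rw [hσ, he]
    · intro e _; simp
    · intro e _; simp
    · intro e _; rfl
  rw [e2]
  ring

lemma extd_pos {l : D → ℕ} {η : Perm D → ℝ} (h : AntiInv l η) {d : D} {j : ℕ} (hd : l d ≠ j) :
    0 ≤ ∑ g, η g * extd η d (univ.filter (fun e => l e = j)) g := by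
  set S := univ.filter (fun e => l e = j) with hS
  set w := extd η d S with hw
  have e1 : ∀ b ∈ S, ∑ g, η (g * swap d b) * w g = - ∑ g, η g * w g := by
    intro b hb
    have hb' : l b = j := by simpa [hS] using hb
    rw [← Equiv.sum_comp (Equiv.mulRight (swap d b)), ← Finset.sum_neg_distrib]
    refine Finset.sum_congr rfl fun g _ => ?_
    simp only [Equiv.coe_mulRight]
    rw [mul_assoc g, swap_mul_self, mul_one, hw, hS, extd_swap_new h hd hb']
    ring
  have e2 : ∑ g, w g * w g = (1 + S.card) * ∑ g, η g * w g := by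
    calc ∑ g, w g * w g = ∑ g, (η g * w g - ∑ b ∈ S, η (g * swap d b) * w g) := by
          refine Finset.sum_congr rfl fun g _ => ?_
          rw [← Finset.sum_mul, ← sub_mul]
          rfl
      _ = ∑ g, η g * w g - ∑ b ∈ S, ∑ g, η (g * swap d b) * w g := by
          rw [Finset.sum_sub_distrib, Finset.sum_comm]
      _ = (1 + S.card) * ∑ g, η g * w g := by
          rw [Finset.sum_congr rfl e1, Finset.sum_const, nsmul_eq_mul]
          ring
  have e3 : 0 ≤ ∑ g, w g * w g := Finset.sum_nonneg fun g _ => mul_self_nonneg _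
  rw [e2] at e3
  have e4 : (0 : ℝ) < 1 + S.card := by positivity
  exact nonneg_of_mul_nonneg_right e3 e4

/-- Size of a block. -/
def cnt (l : D → ℕ) (i : ℕ) : ℕ := (univ.filter (fun e => l e = i)).card

/-- Number of points with label at least `k`. -/
def cge (l : D → ℕ) (k : ℕ) : ℕ := (univ.filter (fun e => k ≤ l e)).card

lemma cge_succ (l : D → ℕ) (k : ℕ) : cge l k = cnt l k + cge l (k + 1) := by
  unfold cge cnt
  simp only [Finset.card_filter]
  rw [← Finset.sum_add_distrib]
  refine Finset.sum_congr rfl fun e _ => ?_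
  split_ifs <;> omega

lemma cge_update (l : D → ℕ) (d : D) (j k : ℕ) (h : l d ≤ j) :
    cge (Function.update l d j) k = cge l k + (if l d < k ∧ k ≤ j then 1 else 0) := by
  unfold cge
  simp only [Finset.card_filter]
  rw [← Finset.add_sum_erase _ _ (mem_univ d), ← Finset.add_sum_erase _ _ (mem_univ d)]
  have : ∀ e ∈ univ.erase d, (if k ≤ Function.update l d j e then 1 else 0)
      = (if k ≤ l e then 1 else 0) := by
    intro e he
    rw [Function.update_of_ne (Finset.mem_erase.mp he).1]
  rw [Finset.sum_congr rfl this, Function.update_self]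
  split_ifs <;> omega

lemma move_one (J : Submodule ℝ (Perm D → ℝ)) (hJ : ∀ η ∈ J, ∀ h, (fun g => η (g * h)) ∈ J)
    {l : D → ℕ} {η : Perm D → ℝ} (hη : η ∈ J) (h0 : η ≠ 0) (h : AntiInv l η) {i j : ℕ}
    (hc : cnt l j < cnt l i) :
    ∃ d, l d = i ∧ ∃ η' ∈ J, η' ≠ 0 ∧ AntiInv (Function.update l d j) η' := by
  have hij : i ≠ j := by rintro rfl; omega
  by_contra hcon
  push Not at hcon
  have hz : ∀ d, l d = i → extd η d (univ.filter (fun e => l e = j)) = 0 := by
    intro d hd
    by_contra hne
    refine hcon d hd _ ?_ hne (extd_anti h (hd ▸ hij))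
    have : extd η d (univ.filter (fun e => l e = j))
        = η - ∑ b ∈ univ.filter (fun e => l e = j), (fun g => η (g * swap d b)) := by
      funext g
      simp [extd, Finset.sum_apply]
    rw [this]
    exact J.sub_mem hη (J.sum_mem fun b _ => hJ η hη _)
  set N := ∑ g, η g * η g with hN
  have hNpos : 0 < N := by
    obtain ⟨g, hg⟩ := Function.ne_iff.mp h0
    exact Finset.sum_pos' (fun g _ => mul_self_nonneg _) ⟨g, mem_univ _, mul_self_pos.mpr hg⟩
  let c : D → D → ℝ := fun d b => ∑ g, η g * η (g * swap d b)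
  have hexp : ∀ d (S : Finset D), ∑ g, η g * extd η d S g = N - ∑ b ∈ S, c d b := by
    intro d S
    simp only [extd, mul_sub, Finset.mul_sum, Finset.sum_sub_distrib, c]
    rw [Finset.sum_comm]
  have a1 : ∀ d ∈ univ.filter (fun e => l e = i),
      ∑ b ∈ univ.filter (fun e => l e = j), c d b = N := by
    intro d hd
    have := hexp d (univ.filter (fun e => l e = j))
    rw [hz d (by simpa using hd)] at this
    simp only [Pi.zero_apply, mul_zero, sum_const_zero] at this
    linarith
  have a2 : ∀ b ∈ univ.filter (fun e => l e = j),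
      ∑ d ∈ univ.filter (fun e => l e = i), c d b ≤ N := by
    intro b hb
    have hb' : l b = j := by simpa using hb
    have := extd_pos h (d := b) (j := i) (hb' ▸ hij.symm)
    rw [hexp] at this
    have e : ∀ d, c b d = c d b := by
      intro d
      simp only [c, swap_comm]
    simp only [e] at this
    linarith
  have a3 := Finset.sum_le_sum a2
  rw [Finset.sum_comm, Finset.sum_congr rfl a1, Finset.sum_const, Finset.sum_const, nsmul_eq_mul,
    nsmul_eq_mul] at a3
  have a4 : (cnt l j : ℝ) < cnt l i := by exact_mod_cast hc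
  unfold cnt at a4
  nlinarith

lemma exists_perm_of_cnt_eq {l l0 : D → ℕ} (h : ∀ i, cnt l i = cnt l0 i) :
    ∃ σ : Perm D, ∀ d, l (σ d) = l0 d := by
  have e : ∀ c, {a // l0 a = c} ≃ {b // l b = c} := fun c =>
    Fintype.equivOfCardEq (by rw [Fintype.card_subtype, Fintype.card_subtype]; exact (h c).symm)
  exact ⟨Equiv.ofFiberEquiv e, fun d => Equiv.ofFiberEquiv_map e d⟩

theorem robin (J : Submodule ℝ (Perm D → ℝ)) (hJ : ∀ η ∈ J, ∀ h, (fun g => η (g * h)) ∈ J)
    (l0 : D → ℕ) (hanti : ∀ i j, i ≤ j → cnt l0 j ≤ cnt l0 i) (l : D → ℕ) :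
    ∀ η ∈ J, η ≠ 0 → AntiInv l η → (∀ k, cge l k ≤ cge l0 k) →
      ∃ η' ∈ J, η' ≠ 0 ∧ AntiInv l0 η' := by
  set K := univ.sup l0 with hK
  have hK0 : ∀ k, K < k → cge l0 k = 0 := by
    intro k hk
    unfold cge
    rw [Finset.card_eq_zero, Finset.filter_eq_empty_iff]
    intro e he
    have : l0 e ≤ K := Finset.le_sup he
    omega
  induction hn : ∑ d, (K - l d) using Nat.strong_induction_on generalizing l with
  | _ n ih =>
    intro η hη h0 h hdom
    by_cases heq : ∀ k, cge l k = cge l0 k
    · obtain ⟨σ, hσ⟩ := exists_perm_of_cnt_eq (l := l) (l0 := l0) (fun i => by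
        have a1 := cge_succ l i
        have a2 := cge_succ l0 i
        have a3 := heq i
        have a4 := heq (i + 1)
        omega)
      refine ⟨fun g => η (g * σ⁻¹), hJ η hη _, ?_, ?_⟩
      · obtain ⟨g, hg⟩ := Function.ne_iff.mp h0
        refine Function.ne_iff.mpr ⟨g * σ, ?_⟩
        simpa using hg
      · intro a b hab hl g
        have e1 : g * swap a b * σ⁻¹ = g * σ⁻¹ * swap (σ a) (σ b) := by
          rw [swap_apply_apply]
          group
        simp only
        rw [e1, h _ _ (σ.injective.ne hab) (by rw [hσ, hσ, hl])]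
    · have hex : ∃ k, cge l k < cge l0 k := by
        push Not at heq
        obtain ⟨k, hk⟩ := heq
        exact ⟨k, lt_of_le_of_ne (hdom k) hk⟩
      have h00 : cge l 0 = cge l0 0 := by simp [cge]
      obtain ⟨i, hi⟩ : ∃ i, Nat.find hex = i + 1 := by
        apply Nat.exists_eq_succ_of_ne_zero
        intro hz
        have := Nat.find_spec hex
        rw [hz] at this
        omega
      have hi1 : cge l (i + 1) < cge l0 (i + 1) := hi ▸ Nat.find_spec hex
      have hi2 : cge l i = cge l0 i := by
        have := Nat.find_min hex (m := i) (by omega)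
        have := hdom i
        omega
      have hex2 : ∃ k, i + 1 ≤ k ∧ cge l k = cge l0 k := by
        refine ⟨max (i + 1) (K + 1), le_max_left _ _, ?_⟩
        have a1 := hK0 (max (i + 1) (K + 1)) (by omega)
        have a2 := hdom (max (i + 1) (K + 1))
        omega
      obtain ⟨j, hj⟩ : ∃ j, Nat.find hex2 = j + 1 := by
        apply Nat.exists_eq_succ_of_ne_zero
        intro hz
        have := Nat.find_spec hex2
        rw [hz] at this
        omega
      have hj1 := hj ▸ Nat.find_spec hex2
      have hj2 : ∀ k, i + 1 ≤ k → k ≤ j → cge l k < cge l0 k := by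
        intro k hk1 hk2
        have := Nat.find_min hex2 (m := k) (by omega)
        have := hdom k
        omega
      have hij : i < j := by
        by_contra hcon
        have : j = i := by omega
        subst this
        omega
      have hjK : j ≤ K := by
        by_contra hcon
        have := hK0 j (by omega)
        have := hj2 j (by omega) le_rfl
        omega
      have hc : cnt l j < cnt l i := by
        have a1 := cge_succ l i
        have a2 := cge_succ l0 i
        have a3 := cge_succ l j
        have a4 := cge_succ l0 j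
        have a5 := hj2 j (by omega) le_rfl
        have a6 := hanti i j hij.le
        omega
      obtain ⟨d, hd, η', hη', h0', h'⟩ := move_one J hJ hη h0 h hc
      refine ih _ ?_ (Function.update l d j) rfl η' hη' h0' h' ?_
      · rw [← hn, ← Finset.add_sum_erase _ _ (mem_univ d), ← Finset.add_sum_erase _ _ (mem_univ d)]
        have : ∀ e ∈ univ.erase d, K - Function.update l d j e = K - l e := by
          intro e he
          rw [Function.update_of_ne (Finset.mem_erase.mp he).1]
        rw [Finset.sum_congr rfl this, Function.update_self]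
        omega
      · intro k
        rw [cge_update l d j k (by omega)]
        have := hdom k
        split_ifs with hk
        · have := hj2 k (by omega) hk.2
          omega
        · omega

lemma AntiInv.mul_stab {l : D → ℕ} {η : Perm D → ℝ} (h : AntiInv l η) :
    ∀ p ∈ stab l, ∀ g, η (g * p) = sg p * η g := by
  apply stab_induction
  · intro g; simp
  · intro a b p hab hl _ ih g
    rw [← mul_assoc, ih, h a b hab hl, sg_mul, sg_swap hab]
    ring

lemma sum_stab_conj (l : D → ℕ) (h : Perm D) (F : Perm D → ℝ) :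
    ∑ p ∈ stab l, F p = ∑ p ∈ stab (l ∘ h), F (h * p * h⁻¹) := by
  refine Finset.sum_bij' (fun p _ => h⁻¹ * p * h) (fun p _ => h * p * h⁻¹) ?_ ?_ ?_ ?_ ?_
  · intro p hp
    rw [mem_stab] at hp ⊢
    intro d
    simp [hp]
  · intro p hp
    rw [mem_stab] at hp ⊢
    intro d
    simpa using hp (h⁻¹ d)
  · intro p _; group
  · intro p _; group
  · intro p _; congr 1; group

lemma sum_alt_sq {X : Type} [Group X] [Fintype X] (δ : Perm D →* X) (W : X → ℝ) (c : D → ℕ) :
    ∑ z, (∑ q ∈ stab c, sg q * W (z * δ q)) ^ 2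
      = (stab c).card * ∑ q ∈ stab c, sg q * ∑ z, W z * W (z * δ q) := by
  set B : X → ℝ := fun z => ∑ q ∈ stab c, sg q * W (z * δ q) with hB
  have b1 : ∀ q ∈ stab c, ∀ z, B (z * δ q) = sg q * B z := by
    intro q hq z
    simp only [hB]
    rw [← sum_stab_mul_left hq (fun r => sg r * W (z * δ r)), Finset.mul_sum]
    refine Finset.sum_congr rfl fun r _ => ?_
    rw [map_mul, sg_mul, ← mul_assoc, ← mul_assoc, sg_mul_self, one_mul, mul_assoc]
  have b2 : ∀ q ∈ stab c, ∑ z, sg q * W (z * δ q) * B z = ∑ z, W z * B z := by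
    intro q hq
    rw [← Equiv.sum_comp (Equiv.mulRight (δ q)) (fun z => W z * B z)]
    refine Finset.sum_congr rfl fun z _ => ?_
    simp only [Equiv.coe_mulRight]
    rw [b1 q hq]
    ring
  calc ∑ z, (B z) ^ 2 = ∑ z, ∑ q ∈ stab c, sg q * W (z * δ q) * B z := by
        refine Finset.sum_congr rfl fun z _ => ?_
        rw [← Finset.sum_mul, sq]
    _ = (stab c).card * ∑ z, W z * B z := by
        rw [Finset.sum_comm, Finset.sum_congr rfl b2, Finset.sum_const, nsmul_eq_mul]
    _ = _ := by
        congr 1
        simp only [hB, Finset.mul_sum]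
        rw [Finset.sum_comm]
        refine Finset.sum_congr rfl fun q _ => Finset.sum_congr rfl fun z _ => ?_
        ring

lemma cnt_row_staircase {m : ℕ} {T : D → ℕ × ℕ} (hT : Function.Injective T)
    (hm : ∀ c : ℕ × ℕ, c.1 + c.2 < m ↔ ∃ d, T d = c) (i : ℕ) : cnt (rowF T) i = m - i := by
  unfold cnt
  rw [← Finset.card_range (m - i)]
  apply Finset.card_bij (fun d _ => colF T d)
  · intro d hd
    have h1 : rowF T d = i := by simpa using hd
    have h2 := (hm (T d)).mpr ⟨d, rfl⟩
    unfold rowF at h1
    rw [mem_range, colF]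
    omega
  · intro d hd e he h
    have h1 : rowF T d = i := by simpa using hd
    have h2 : rowF T e = i := by simpa using he
    exact hT (Prod.ext (h1.trans h2.symm) h)
  · intro j hj
    rw [mem_range] at hj
    obtain ⟨d, hd⟩ := (hm (i, j)).mp (by simp only; omega)
    have h1 : rowF T d = i := by rw [rowF, hd]
    exact ⟨d, Finset.mem_filter.mpr ⟨mem_univ _, h1⟩, by rw [colF, hd]⟩

theorem supp_dominance {m : ℕ} {T : D → ℕ × ℕ} (hT : Function.Injective T)
    (hm : ∀ c : ℕ × ℕ, c.1 + c.2 < m ↔ ∃ d, T d = c) (S : Finset (ℕ × ℕ)) (τ0 : D → ℕ × ℕ)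
    (hτ0 : IsFill τ0 S) (hdom : ∀ k, cge (colF τ0) k ≤ cge (rowF T) k) :
    ∃ τ, IsFill τ S ∧ Supp T τ := by
  by_contra hcon
  have hzero : ∀ τ, IsFill τ S → ∀ x : D → ℕ × ℕ, ys τ (fun g => vv T (x ∘ g)) = 0 := by
    intro τ hτ x
    by_contra hne
    exact hcon ⟨τ, hτ, x, hne⟩
  let J : Submodule ℝ (Perm D → ℝ) :=
    { carrier := {η | ∀ (h : Perm D) (x : D → ℕ × ℕ), ∑ g, η g * vv T (x ∘ ⇑(g * h)) = 0}
      add_mem' := by
        intro a b ha hb h x
        simp only [Pi.add_apply, add_mul, Finset.sum_add_distrib]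
        rw [ha h x, hb h x, add_zero]
      zero_mem' := by intro h x; simp
      smul_mem' := by
        intro r a ha h x
        simp only [Pi.smul_apply, smul_eq_mul, mul_assoc, ← Finset.mul_sum]
        rw [ha h x, mul_zero] }
  have hJ : ∀ η ∈ J, ∀ h, (fun g => η (g * h)) ∈ J := by
    intro η hη h k x
    rw [← hη (h⁻¹ * k) x, ← Equiv.sum_comp (Equiv.mulRight h)
      (fun g => η g * vv T (x ∘ ⇑(g * (h⁻¹ * k))))]
    refine Finset.sum_congr rfl fun g _ => ?_
    simp only [Equiv.coe_mulRight]
    congr 4
    group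
  let η0 : Perm D → ℝ := fun g =>
    ∑ p ∈ stab (rowF τ0), ∑ q ∈ stab (colF τ0), if g = p * q then sg q else 0
  have h1 : η0 ∈ J := by
    intro h x
    have e1 : ∑ g, η0 g * vv T (x ∘ ⇑(g * h))
        = ∑ p ∈ stab (rowF τ0), ∑ q ∈ stab (colF τ0), sg q * vv T (x ∘ ⇑(p * q * h)) := by
      simp only [η0, Finset.sum_mul]
      rw [Finset.sum_comm]
      refine Finset.sum_congr rfl fun p _ => ?_
      rw [Finset.sum_comm]
      refine Finset.sum_congr rfl fun q _ => ?_
      simp
    have hf : IsFill (τ0 ∘ h) S := by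
      refine ⟨hτ0.1.comp h.injective, fun c => ?_⟩
      rw [hτ0.2]
      constructor
      · rintro ⟨d, rfl⟩
        exact ⟨h⁻¹ d, by simp⟩
      · rintro ⟨d, rfl⟩
        exact ⟨h d, rfl⟩
    rw [e1, ← hzero _ hf (x ∘ h), sum_stab_conj _ h]
    unfold ys
    refine Finset.sum_congr rfl fun p _ => ?_
    rw [sum_stab_conj _ h]
    refine Finset.sum_congr rfl fun q _ => ?_
    have e2 : h * p * h⁻¹ * (h * q * h⁻¹) * h = h * (p * q) := by group
    rw [e2, sg_mul, sg_mul, sg_inv, mul_right_comm (sg h), sg_mul_self, one_mul]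
    rfl
  have h2 : η0 ≠ 0 := by
    refine Function.ne_iff.mpr ⟨1, ?_⟩
    have key : ∀ p ∈ stab (rowF τ0), ∀ q ∈ stab (colF τ0), 1 = p * q → q = 1 := by
      intro p hp q hq hpq
      have : q = p⁻¹ := (inv_eq_of_mul_eq_one_right hpq.symm).symm
      ext d
      apply hτ0.1
      refine Prod.ext ?_ (mem_stab.mp hq d)
      rw [this]
      exact mem_stab.mp (inv_mem_stab hp) d
    simp only [η0, Pi.zero_apply]
    rw [Finset.sum_eq_single 1, Finset.sum_eq_single 1]
    · simp
    · intro q hq hne
      rw [if_neg]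
      intro h
      exact hne (key 1 (one_mem_stab _) q hq h)
    · intro h
      exact absurd (one_mem_stab _) h
    · intro p hp hne
      refine Finset.sum_eq_zero fun q hq => ?_
      rw [if_neg]
      intro h
      have := key p hp q hq h
      rw [this, mul_one] at h
      exact hne h.symm
    · intro h
      exact absurd (one_mem_stab _) h
  have h3 : AntiInv (colF τ0) η0 := by
    intro a b hab hl g
    simp only [η0]
    rw [← Finset.sum_neg_distrib]
    refine Finset.sum_congr rfl fun p _ => ?_
    rw [← sum_stab_mul_right (swap_mem_stab hl), ← Finset.sum_neg_distrib]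
    refine Finset.sum_congr rfl fun q _ => ?_
    rw [← mul_assoc, sg_mul, sg_swap hab]
    simp only [mul_left_inj]
    split_ifs <;> simp
  obtain ⟨η, hη, hη0, hηa⟩ := robin J hJ (rowF T) (fun i j hij => by
    rw [cnt_row_staircase hT hm, cnt_row_staircase hT hm]; omega) (colF τ0) η0 h1 h2 h3 hdom
  have hηR := hηa.mul_stab
  have hlt : ∀ d, (T d).1 + (T d).2 < m := fun d => (hm (T d)).mpr ⟨d, rfl⟩
  have hcd : ∀ d d', colF T d = colF T d' → diagF T d = diagF T d' → d = d' := by
    intro d d' a1 a2
    unfold colF at a1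
    unfold diagF at a2
    exact hT (Prod.ext (by omega) a1)
  have hrd : ∀ d d', rowF T d = rowF T d' → diagF T d = diagF T d' → d = d' := by
    intro d d' a1 a2
    unfold rowF at a1
    unfold diagF at a2
    exact hT (Prod.ext a1 (by omega))
  let r' : D → ℕ := fun d => m - 1 - rowF T d
  obtain ⟨q0, hq0, hq0'⟩ := exists_stab_of_forall (s := r') hcd (by
    intro d
    have := hlt d
    obtain ⟨e, he⟩ := (hm (m - 1 - diagF T d, colF T d)).mp (by
      simp only [diagF, colF]; omega)
    refine ⟨e, by rw [colF, he], ?_⟩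
    simp only [r', rowF, he, diagF]
    omega)
  let E : Perm D → ℝ := fun g => altD (colF T) (diagF T) (r' ∘ g)
  let F : Perm D → ℝ := fun g => altD (rowF T) (diagF T) (diagF T ∘ g)
  have s1 : ∀ k h : Perm D, ∑ g, E g * (F (k * g) * η (h * g)) = 0 := by
    intro k h
    rw [← hη 1 (fun d => (r' (h⁻¹ d), diagF T (k (h⁻¹ d)))),
      ← Equiv.sum_comp (Equiv.mulLeft h) (fun g => η g * _)]
    refine Finset.sum_congr rfl fun g _ => ?_
    simp only [Equiv.coe_mulLeft, mul_one]
    have a1 : rowF ((fun d => (r' (h⁻¹ d), diagF T (k (h⁻¹ d)))) ∘ ⇑(h * g)) = r' ∘ g := by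
      funext d; simp [rowF]
    have a2 : colF ((fun d => (r' (h⁻¹ d), diagF T (k (h⁻¹ d)))) ∘ ⇑(h * g))
        = diagF T ∘ ⇑(k * g) := by
      funext d; simp [colF]
    unfold vv
    rw [a1, a2]
    simp only [E, F]
    ring
  let δ : Perm D →* Perm D × Perm D := (MonoidHom.id _).prod (MonoidHom.id _)
  let W : Perm D × Perm D → ℝ := fun z => F z.1 * η z.2
  let Φ : Perm D → ℝ := fun g => ∑ z, W z * W (z * δ g)
  have s2 : ∑ g, E g * Φ g = 0 := by
    simp only [Φ, Finset.mul_sum]
    rw [Finset.sum_comm]
    refine Finset.sum_eq_zero fun z _ => ?_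
    have := s1 z.1 z.2
    calc ∑ g, E g * (W z * W (z * δ g)) = W z * ∑ g, E g * (F (z.1 * g) * η (z.2 * g)) := by
          rw [Finset.mul_sum]
          refine Finset.sum_congr rfl fun g _ => ?_
          have : W (z * δ g) = F (z.1 * g) * η (z.2 * g) := rfl
          rw [this]
          ring
      _ = 0 := by rw [this, mul_zero]
  have s3 : ∀ p ∈ stab (rowF T), ∀ g, Φ (p * g) = Φ g := by
    intro p hp g
    have w1 : ∀ z, W (z * δ p) = W z := by
      intro z
      have a1 : W (z * δ p) = F (z.1 * p) * η (z.2 * p) := rfl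
      have a2 : F (z.1 * p) = sg p * F z.1 := altD_comp (s := diagF T ∘ z.1) hp
      rw [a1, a2, hηR p hp]
      calc sg p * F z.1 * (sg p * η z.2) = (sg p * sg p) * (F z.1 * η z.2) := by ring
        _ = W z := by rw [sg_mul_self, one_mul]
    simp only [Φ]
    rw [← Equiv.sum_comp (Equiv.mulRight (δ p)) (fun z => W z * W (z * δ g))]
    refine Finset.sum_congr rfl fun z _ => ?_
    simp only [Equiv.coe_mulRight]
    rw [w1, map_mul, mul_assoc z]
  have s4 : ∑ g, E g * Φ g
      = (stab (rowF T)).card * (sg q0 * ∑ q ∈ stab (colF T), sg q * Φ q) := by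
    simp only [E, altD, Finset.sum_mul]
    rw [Finset.sum_comm]
    have a1 : ∀ q ∈ stab (colF T),
        ∑ g : Perm D, (if ∀ d, (r' ∘ g) (q d) = diagF T d then sg q else 0) * Φ g
          = (stab (rowF T)).card * (sg q * Φ (q0 * q⁻¹)) := by
      intro q _
      rw [← Equiv.sum_comp (Equiv.mulRight (q0 * q⁻¹))]
      simp only [Equiv.coe_mulRight]
      have a2 : ∀ g : Perm D, (∀ d, (r' ∘ ⇑(g * (q0 * q⁻¹))) (q d) = diagF T d)
          ↔ g ∈ stab (rowF T) := by
        intro g
        rw [mem_stab]
        constructor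
        · intro h e
          have b1 := h (q0⁻¹ e)
          rw [← hq0'] at b1
          simp only [Function.comp_apply, Perm.mul_apply, Perm.coe_inv, symm_apply_apply,
            apply_symm_apply, r', rowF] at b1
          have b2 := hlt e
          have b3 := hlt (g e)
          unfold rowF
          omega
        · intro h d
          rw [← hq0']
          simp only [Function.comp_apply, Perm.mul_apply, Perm.coe_inv, symm_apply_apply, r', h]
      simp only [a2, ite_mul, zero_mul]
      rw [← Finset.sum_filter, Finset.filter_mem_eq_inter, Finset.univ_inter,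
        Finset.sum_congr rfl (fun p hp => by rw [s3 p hp]), Finset.sum_const, nsmul_eq_mul]
    rw [Finset.sum_congr rfl a1, ← Finset.mul_sum]
    congr 1
    rw [← sum_stab_inv, ← sum_stab_mul_left hq0 (fun q => sg q * Φ q), Finset.mul_sum]
    refine Finset.sum_congr rfl fun q _ => ?_
    rw [inv_inv, sg_inv, sg_mul, ← mul_assoc, ← mul_assoc, sg_mul_self, one_mul]
  have s5 : ∑ q ∈ stab (colF T), sg q * Φ q = 0 := by
    rw [s2] at s4
    rcases mul_eq_zero.mp s4.symm with h | h
    · exact absurd h (card_stab_pos _).ne'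
    · exact (mul_eq_zero.mp h).resolve_left (sg_ne_zero _)
  have s6 := sum_alt_sq δ W (colF T)
  rw [s5, mul_zero] at s6
  apply hη0
  funext h
  have s7 := (Finset.sum_eq_zero_iff_of_nonneg (fun z _ => sq_nonneg _)).mp s6 (1, h) (mem_univ _)
  have s8 := pow_eq_zero_iff (two_ne_zero) |>.mp s7
  rw [Finset.sum_eq_single 1] at s8
  · have a1 : F 1 = 1 := by
      exact (altD_eq_sg (s := diagF T ∘ ⇑(1 : Perm D)) hrd (one_mem_stab _)
        (fun d => rfl)).trans sg_one
    simpa [W, a1] using s8
  · intro q hq hne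
    have a1 : F q = 0 := by
      by_contra hF
      obtain ⟨p, hp, hs⟩ := altD_ne_zero hF
      apply hne
      ext d
      apply hcd _ _ (mem_stab.mp hq d)
      have b1 : ∀ thr, thr ≤ diagF T (q d) ↔ thr ≤ diagF T d := by
        intro thr
        refine band_unique T thr (fun d => thr ≤ diagF T (q d)) (inv_mem_stab hq) hp ?_ ?_ d
        · intro e; simp
        · intro e
          rw [← hs e]
          rfl
      exact le_antisymm ((b1 _).mp le_rfl) ((b1 _).mpr le_rfl)
    have a2 : W ((1, h) * δ q) = F (1 * q) * η (h * q) := rfl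
    rw [a2, one_mul, a1]
    simp
  · intro h
    exact absurd (one_mem_stab _) h

end Vale.Agent.P197
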