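import Vale.Agent.P197.Zigzag
import Vale.Agent.P197.Robin

/-! The induction over staircases. -/

namespace Vale.Agent.P197

open Equiv Finset

set_option linter.unusedSectionVars false

variable {D : Type} [Fintype D] [DecidableEq D]

lemma exists_fill (S : Finset (ℕ × ℕ)) (h : S.card = Fintype.card D) :
    ∃ τ : D → ℕ × ℕ, IsFill τ S := by
  let e : D ≃ S := Fintype.equivOfCardEq (by rw [← h, Fintype.card_coe])
  refine ⟨fun d => (e d).1, Subtype.val_injective.comp e.injective, fun c => ⟨fun hc => ?_, ?_⟩⟩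
  · exact ⟨e.symm ⟨c, hc⟩, by simp⟩
  · rintro ⟨d, rfl⟩
    exact (e d).2

lemma IsFill.card_filter {τ : D → ℕ × ℕ} {S : Finset (ℕ × ℕ)} (h : IsFill τ S)
    (P : ℕ × ℕ → Prop) [DecidablePred P] :
    (univ.filter (fun d => P (τ d))).card = (S.filter P).card := by
  apply Finset.card_bij (fun d _ => τ d)
  · intro d hd
    exact Finset.mem_filter.mpr ⟨(h.2 _).mpr ⟨d, rfl⟩, (Finset.mem_filter.mp hd).2⟩
  · intro d _ e _ he
    exact h.1 he
  · intro c hc
    obtain ⟨d, rfl⟩ := (h.2 c).mp (Finset.mem_filter.mp hc).1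
    exact ⟨d, Finset.mem_filter.mpr ⟨mem_univ _, (Finset.mem_filter.mp hc).2⟩, rfl⟩

lemma exists_between (α : YoungDiagram) (t : ℕ) (ht : α.card ≤ t) (n : ℕ) :
    ∀ β : YoungDiagram, α ≤ β → β.card = t + n → ∃ μ, α ≤ μ ∧ μ ≤ β ∧ μ.card = t := by
  induction n with
  | zero => intro β h hc; exact ⟨β, h, le_rfl, hc⟩
  | succ n ih =>
    intro β h hc
    have hne : (β.cells \ α.cells).Nonempty := by
      rw [← Finset.card_pos, Finset.card_sdiff_of_subset (YoungDiagram.cells_subset_iff.mpr h)]
      unfold YoungDiagram.card at ht hc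
      omega
    obtain ⟨c, hc1⟩ := Finset.exists_maximal hne
    have hc2 := Finset.mem_sdiff.mp hc1.1
    let β' : YoungDiagram :=
      { cells := β.cells.erase c
        isLowerSet := by
          intro a b hba ha
          rw [Finset.mem_coe, Finset.mem_erase] at ha ⊢
          refine ⟨?_, β.isLowerSet hba ha.2⟩
          rintro rfl
          apply ha.1
          refine le_antisymm (hc1.2 (Finset.mem_sdiff.mpr ⟨ha.2, fun h' => ?_⟩) hba) hba
          exact hc2.2 (α.isLowerSet hba h') }
    obtain ⟨μ, h1, h2, h3⟩ := ih β' (by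
      intro a ha
      refine Finset.mem_erase.mpr ⟨?_, h ha⟩
      rintro rfl
      exact hc2.2 ha) (by
      have : β'.card = β.card - 1 := Finset.card_erase_of_mem hc2.1
      omega)
    exact ⟨μ, h1, h2.trans (fun a ha => (Finset.mem_erase.mp ha).2), h3⟩

/-- Number of cells in the first `j` rows. -/
def topc (ν : YoungDiagram) (j : ℕ) : ℕ := (ν.cells.filter (fun c => c.1 < j)).card

lemma exists_strip (ν : YoungDiagram) (k s : ℕ) (hs : s ≤ topc ν k) :
    ∃ μ : YoungDiagram, μ ≤ ν ∧ μ.card + s = ν.card ∧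
      ∀ i j, (i, j) ∉ μ → (i + k, j) ∉ ν := by
  let α : YoungDiagram :=
    { cells := ν.cells.filter (fun c => (c.1 + k, c.2) ∈ ν)
      isLowerSet := by
        intro a b hba ha
        rw [Finset.mem_coe, Finset.mem_filter] at ha ⊢
        exact ⟨ν.isLowerSet hba ha.1,
          ν.up_left_mem (Nat.add_le_add_right hba.1 k) hba.2 ha.2⟩ }
  have h1 : α.card = (ν.cells.filter (fun c => ¬ c.1 < k)).card := by
    apply Finset.card_bij (fun c _ => (c.1 + k, c.2))
    · intro c hc
      refine Finset.mem_filter.mpr ⟨(Finset.mem_filter.mp hc).2, ?_⟩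
      simp
    · intro c _ c' _ h
      simp only [Prod.mk.injEq, Nat.add_right_cancel_iff] at h
      exact Prod.ext h.1 h.2
    · intro c hc
      obtain ⟨hc1, hc2⟩ := Finset.mem_filter.mp hc
      have e : (c.1 - k + k, c.2) = c := Prod.ext (by simp only; omega) rfl
      refine ⟨(c.1 - k, c.2), Finset.mem_filter.mpr ⟨?_, ?_⟩, e⟩
      · exact ν.up_left_mem (Nat.sub_le _ _) le_rfl hc1
      · simp only [e]
        exact hc1
  have h2 := Finset.card_filter_add_card_filter_not (s := ν.cells) (fun c => c.1 < k)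
  unfold topc at hs
  have h3 : ν.card = ν.cells.card := rfl
  obtain ⟨μ, a1, a2, a3⟩ := exists_between α (ν.card - s) (by omega) s ν
    (fun a ha => (Finset.mem_filter.mp ha).1) (by omega)
  refine ⟨μ, a2, by omega, fun i j hij h => hij (a1 ?_)⟩
  exact Finset.mem_filter.mpr ⟨ν.up_left_mem (Nat.le_add_right _ _) le_rfl h, h⟩

theorem supp_step (T : D → ℕ × ℕ) (thr : ℕ) {μ ν : YoungDiagram} (hμν : μ ≤ ν)
    (τ1 : {d // thr ≤ diagF T d} → ℕ × ℕ) (τ2 : {d // ¬ thr ≤ diagF T d} → ℕ × ℕ)
    (f1 : IsFill τ1 (ν.cells \ μ.cells)) (f2 : IsFill τ2 μ.cells)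
    (s1 : Supp (fun d : {d // thr ≤ diagF T d} => T d) τ1)
    (s2 : Supp (fun d : {d // ¬ thr ≤ diagF T d} => T d) τ2) :
    ∃ τ, IsFill τ ν.cells ∧ Supp T τ := by
  let τ : D → ℕ × ℕ := fun d => if h : thr ≤ diagF T d then τ1 ⟨d, h⟩ else τ2 ⟨d, h⟩
  have e1 : ∀ d (h : thr ≤ diagF T d), τ d = τ1 ⟨d, h⟩ := fun d h => dif_pos h
  have e2 : ∀ d (h : ¬ thr ≤ diagF T d), τ d = τ2 ⟨d, h⟩ := fun d h => dif_neg h
  have m1 : ∀ d, τ1 d ∈ ν.cells ∧ τ1 d ∉ μ.cells := fun d =>
    Finset.mem_sdiff.mp ((f1.2 _).mpr ⟨d, rfl⟩)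
  have m2 : ∀ d, τ2 d ∈ μ.cells := fun d => (f2.2 _).mpr ⟨d, rfl⟩
  refine ⟨τ, ⟨?_, fun c => ⟨fun hc => ?_, ?_⟩⟩, ?_⟩
  · intro d d' h
    by_cases hd : thr ≤ diagF T d <;> by_cases hd' : thr ≤ diagF T d'
    · rw [e1 d hd, e1 d' hd'] at h
      exact congrArg Subtype.val (f1.1 h)
    · rw [e1 d hd, e2 d' hd'] at h
      exact absurd (h ▸ m2 _) (m1 _).2
    · rw [e2 d hd, e1 d' hd'] at h
      exact absurd (h ▸ m2 _) (m1 _).2
    · rw [e2 d hd, e2 d' hd'] at h
      exact congrArg Subtype.val (f2.1 h)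
  · by_cases hμ : c ∈ μ.cells
    · obtain ⟨d, hd⟩ := (f2.2 c).mp hμ
      exact ⟨d, by rw [e2 d d.2]; exact hd⟩
    · obtain ⟨d, hd⟩ := (f1.2 c).mp (Finset.mem_sdiff.mpr ⟨hc, hμ⟩)
      exact ⟨d, by rw [e1 d d.2]; exact hd⟩
  · rintro ⟨d, rfl⟩
    by_cases hd : thr ≤ diagF T d
    · rw [e1 d hd]; exact (m1 _).1
    · rw [e2 d hd]; exact hμν (m2 _)
  · apply supp_comb T τ thr
    · intro d d' hc hd hd'
      by_contra hlt
      apply (m1 ⟨d, hd⟩).2
      have := m2 ⟨d', hd'⟩
      rw [← e2 d' hd'] at this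
      rw [← e1 d hd]
      exact μ.isLowerSet (Prod.mk_le_mk.mpr ⟨not_lt.mp hlt, le_of_eq hc⟩) this
    · have : (fun d : {d // thr ≤ diagF T d} => τ d) = τ1 := funext fun d => e1 d d.2
      rw [this]; exact s1
    · have : (fun d : {d // ¬ thr ≤ diagF T d} => τ d) = τ2 := funext fun d => e2 d d.2
      rw [this]; exact s2

lemma exists_sorted_fill {n : ℕ} (ι : D → ℕ) (hinj : Function.Injective ι) (hlt : ∀ d, ι d < n)
    (hsurj : ∀ i, i < n → ∃ d, ι d = i) (S : Finset (ℕ × ℕ)) (hS : S.card = n) :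
    ∃ τ : D → ℕ × ℕ, IsFill τ S ∧ ∀ d d', ι d ≤ ι d' → colF τ d ≤ colF τ d' := by
  let f : ℕ × ℕ → ℕ ×ₗ ℕ := fun c => toLex (c.2, c.1)
  have hf : Function.Injective f := by
    intro a b h
    have := toLex.injective h
    simp only [Prod.mk.injEq] at this
    exact Prod.ext this.2 this.1
  have hcard : (S.image f).card = n := by rw [Finset.card_image_of_injective _ hf, hS]
  let o := (S.image f).orderEmbOfFin hcard
  let τ : D → ℕ × ℕ := fun d => ((ofLex (o ⟨ι d, hlt d⟩)).2, (ofLex (o ⟨ι d, hlt d⟩)).1)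
  have hτ : ∀ d, f (τ d) = o ⟨ι d, hlt d⟩ := fun d => rfl
  refine ⟨τ, ⟨?_, fun c => ⟨fun hc => ?_, ?_⟩⟩, ?_⟩
  · intro d d' h
    have := congrArg f h
    rw [hτ, hτ] at this
    exact hinj (congrArg Fin.val (o.injective this))
  · have : f c ∈ Set.range o := by
      rw [Finset.range_orderEmbOfFin]
      exact Finset.mem_coe.mpr (Finset.mem_image_of_mem f hc)
    obtain ⟨i, hi⟩ := this
    obtain ⟨d, hd⟩ := hsurj i.1 i.2
    refine ⟨d, hf ?_⟩
    rw [hτ, ← hi]
    congr 1
    exact Fin.ext hd
  · rintro ⟨d, rfl⟩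
    have := Finset.orderEmbOfFin_mem (S.image f) hcard ⟨ι d, hlt d⟩
    obtain ⟨c, hc, hc'⟩ := Finset.mem_image.mp this
    have : c = τ d := hf (by rw [hτ]; exact hc')
    exact this ▸ hc
  · intro d d' h
    exact Prod.Lex.monotone_fst _ _ (o.monotone (show (⟨ι d, hlt d⟩ : Fin n) ≤ ⟨ι d', hlt d'⟩ from h))

lemma topc_succ (ν : YoungDiagram) (j : ℕ) : topc ν (j + 1) = topc ν j + ν.rowLen j := by
  rw [YoungDiagram.rowLen_eq_card]
  unfold topc YoungDiagram.row
  simp only [Finset.card_filter]
  rw [← Finset.sum_add_distrib]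
  refine Finset.sum_congr rfl fun e _ => ?_
  split_ifs <;> omega

lemma topc_zero (ν : YoungDiagram) : topc ν 0 = 0 := by simp [topc]

lemma topc_le (ν : YoungDiagram) (j : ℕ) : topc ν j ≤ ν.card := Finset.card_filter_le _ _

lemma topc_concave (ν : YoungDiagram) (j : ℕ) : 4 * topc ν (j + 4) ≤ (j + 4) * topc ν 4 := by
  induction j with
  | zero => simp
  | succ j ih =>
    have a1 := topc_succ ν (j + 4)
    have a2 : topc ν 4 = ν.rowLen 0 + ν.rowLen 1 + ν.rowLen 2 + ν.rowLen 3 := by
      rw [topc_succ, topc_succ, topc_succ, topc_succ, topc_zero]; simp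
    have b0 := ν.rowLen_anti 0 (j + 4) (by omega)
    have b1 := ν.rowLen_anti 1 (j + 4) (by omega)
    have b2 := ν.rowLen_anti 2 (j + 4) (by omega)
    have b3 := ν.rowLen_anti 3 (j + 4) (by omega)
    have : j + 1 + 4 = j + 4 + 1 := by ring
    rw [this, a1, add_mul (j + 4) 1]
    omega

lemma right_cells (ν : YoungDiagram) (k : ℕ) :
    (ν.cells.filter (fun c => k ≤ c.2)).card + ν.colLen k * k = topc ν (ν.colLen k) := by
  unfold topc
  have h : (range (ν.colLen k) ×ˢ range k).card = ν.colLen k * k := by simp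
  rw [← h, ← Finset.card_union_of_disjoint]
  · congr 1
    ext ⟨i, j⟩
    simp only [mem_union, mem_filter, YoungDiagram.mem_cells, mem_product, mem_range,
      ← YoungDiagram.mem_iff_lt_colLen]
    constructor
    · rintro (⟨h1, h2⟩ | ⟨h1, h2⟩)
      · exact ⟨h1, ν.up_left_mem le_rfl h2 h1⟩
      · exact ⟨ν.up_left_mem le_rfl h2.le h1, h1⟩
    · rintro ⟨h1, h2⟩
      by_cases hk : k ≤ j
      · exact Or.inl ⟨h1, hk⟩
      · exact Or.inr ⟨h2, not_le.mp hk⟩
  · rw [Finset.disjoint_left]
    rintro ⟨i, j⟩ h1 h2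
    simp only [mem_filter, mem_product, mem_range] at h1 h2
    omega

lemma cge_row_staircase {m : ℕ} {T : D → ℕ × ℕ} (hT : Function.Injective T)
    (hm : ∀ c : ℕ × ℕ, c.1 + c.2 < m ↔ ∃ d, T d = c) (u : ℕ) :
    ∀ k, k + u = m → 2 * cge (rowF T) k = u * (u + 1) := by
  induction u with
  | zero =>
    intro k hk
    have : cge (rowF T) k = 0 := by
      unfold cge
      rw [Finset.card_eq_zero, Finset.filter_eq_empty_iff]
      intro d _
      have := (hm (T d)).mpr ⟨d, rfl⟩
      unfold rowF
      omega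
    simp [this]
  | succ u ih =>
    intro k hk
    have := ih (k + 1) (by omega)
    rw [cge_succ, cnt_row_staircase hT hm, mul_add, this]
    have : m - k = u + 1 := by omega
    rw [this]
    ring

lemma dominance_bound (ν : YoungDiagram) (m : ℕ) (hN : 2 * ν.card = m * (m + 1))
    (h1 : topc ν 1 < m) (h4 : topc ν 4 + 2 ≤ 2 * m) (k u : ℕ) (hk : k + u = m) :
    2 * (ν.cells.filter (fun c => k ≤ c.2)).card ≤ u * (u + 1) := by
  have a1 := right_cells ν k
  set X := (ν.cells.filter (fun c => k ≤ c.2)).card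
  set j := ν.colLen k
  have t1 := topc_succ ν 0
  have t2 := topc_succ ν 1
  have t3 := topc_succ ν 2
  have t4 := topc_succ ν 3
  have t0 := topc_zero ν
  norm_num at t1 t2 t3 t4
  by_cases hj : j ≤ m
  · have b : 2 * topc ν j + j * j ≤ 2 * j * m + j := by
      rcases Nat.lt_or_ge j 4 with h | h
      · interval_cases j <;> omega
      · obtain ⟨i, hi⟩ : ∃ i, j = i + 4 := ⟨j - 4, by omega⟩
        have := topc_concave ν i
        rw [← hi] at this
        nlinarith
    subst hk
    zify at *
    have : (0 : ℤ) ≤ ((u : ℤ) - j) * ((u : ℤ) - j + 1) := by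
      rcases le_or_gt (j : ℤ) u with h | h
      · apply mul_nonneg <;> omega
      · apply mul_nonneg_of_nonpos_of_nonpos <;> omega
    nlinarith
  · have b := topc_le ν j
    subst hk
    have c : (k + u + 1) * k ≤ j * k := Nat.mul_le_mul_right _ (by omega)
    nlinarith

theorem supp_all (m : ℕ) : ∀ (D : Type) [Fintype D] [DecidableEq D] (T : D → ℕ × ℕ),
    Function.Injective T → (∀ c : ℕ × ℕ, c.1 + c.2 < m ↔ ∃ d, T d = c) →
    ∀ ν : YoungDiagram, ν.card = Fintype.card D → ∃ τ, IsFill τ ν.cells ∧ Supp T τ := by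
  induction m using Nat.strong_induction_on with
  | _ m ih =>
    intro D _ _ T hT hm ν hν
    have hlt : ∀ d, (T d).1 + (T d).2 < m := fun d => (hm (T d)).mpr ⟨d, rfl⟩
    have inner : ∀ thr, thr < m → ∀ μ : YoungDiagram,
        μ.card + Fintype.card {d // thr ≤ diagF T d} = ν.card →
        ∃ τ2 : {d // ¬ thr ≤ diagF T d} → ℕ × ℕ, IsFill τ2 μ.cells ∧
          Supp (fun d : {d // ¬ thr ≤ diagF T d} => T d) τ2 := by
      intro thr hthr μ hμ
      apply ih thr hthr
      · exact hT.comp Subtype.val_injective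
      · intro c
        constructor
        · intro hc
          obtain ⟨d, hd⟩ := (hm c).mp (by omega)
          exact ⟨⟨d, by rw [diagF, hd]; omega⟩, hd⟩
        · rintro ⟨d, rfl⟩
          exact not_le.mp d.2
      · rw [Fintype.card_subtype_compl]
        omega
    rcases Nat.eq_zero_or_pos m with rfl | hpos
    · have : IsEmpty D := ⟨fun d => by have := hlt d; omega⟩
      obtain ⟨τ, hτ⟩ := exists_fill (D := D) ν.cells hν
      exact ⟨τ, hτ, supp_diag T τ 0 hT (fun d => isEmptyElim d) (fun d => isEmptyElim d)⟩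
    by_cases hA : m ≤ topc ν 1
    · obtain ⟨μ, hμν, hc, hs⟩ := exists_strip ν 1 m hA
      have hcard : Fintype.card {d // m - 1 ≤ diagF T d} = m := by
        rw [Fintype.card_subtype, ← Finset.card_range m]
        apply Finset.card_bij (fun d _ => rowF T d)
        · intro d _
          have := hlt d
          rw [mem_range, rowF]
          omega
        · intro d hd e he h
          have a1 := (Finset.mem_filter.mp hd).2
          have a2 := (Finset.mem_filter.mp he).2
          have a3 := hlt d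
          have a4 := hlt e
          rw [Finset.card_range] at a1 a2
          unfold diagF at a1 a2
          unfold rowF at h
          exact hT (Prod.ext h (by omega))
        · intro i hi
          rw [mem_range] at hi
          obtain ⟨d, hd⟩ := (hm (i, m - 1 - i)).mp (by simp only; omega)
          refine ⟨d, Finset.mem_filter.mpr ⟨mem_univ _, ?_⟩, by rw [rowF, hd]⟩
          rw [Finset.card_range, diagF, hd]
          simp only
          omega
      obtain ⟨τ2, f2, s2⟩ := inner (m - 1) (by omega) μ (by omega)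
      obtain ⟨τ1, f1⟩ := exists_fill (D := {d // m - 1 ≤ diagF T d}) (ν.cells \ μ.cells) (by
        rw [Finset.card_sdiff_of_subset (YoungDiagram.cells_subset_iff.mpr hμν), hcard]
        unfold YoungDiagram.card at hc
        omega)
      refine supp_step T (m - 1) hμν τ1 τ2 f1 f2 ?_ s2
      apply supp_diag _ _ (m - 1) (hT.comp Subtype.val_injective)
      · intro d
        have a1 : m - 1 ≤ (T d).1 + (T d).2 := d.2
        have a2 := hlt d
        show (T d).1 + (T d).2 = m - 1
        omega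
      · intro d e h
        have a1 := Finset.mem_sdiff.mp ((f1.2 _).mpr ⟨d, rfl⟩)
        have a2 := Finset.mem_sdiff.mp ((f1.2 _).mpr ⟨e, rfl⟩)
        have b1 := hs (τ1 d).1 (τ1 d).2 a1.2
        have b2 := hs (τ1 e).1 (τ1 e).2 a2.2
        unfold colF at h
        refine f1.1 (Prod.ext ?_ h)
        by_contra hne
        rcases Nat.lt_or_gt_of_ne hne with hl | hl
        · exact b1 (ν.up_left_mem hl h.le a2.1)
        · exact b2 (ν.up_left_mem hl h.ge a1.1)
    have hN := cge_row_staircase hT hm m 0 (by omega)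
    have hN' : cge (rowF T) 0 = ν.card := by simp [cge, hν]
    rw [hN'] at hN
    by_cases hB : 2 * m - 1 ≤ topc ν 4
    · obtain ⟨M, rfl⟩ : ∃ M, m = M + 2 := by
        refine ⟨m - 2, ?_⟩
        by_contra hcon
        have hm1 : m = 1 := by omega
        subst hm1
        have t1 := topc_succ ν 0
        have t2 := topc_succ ν 1
        have t3 := topc_succ ν 2
        have t4 := topc_succ ν 3
        have t0 := topc_zero ν
        have b1 := ν.rowLen_anti 0 1 (by omega)
        have b2 := ν.rowLen_anti 0 2 (by omega)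
        have b3 := ν.rowLen_anti 0 3 (by omega)
        norm_num at t1 t2 t3 t4
        omega
      obtain ⟨μ, hμν, hc, hs⟩ := exists_strip ν 4 (2 * M + 3) (by omega)
      let ι : {d // M ≤ diagF T d} → ℕ := fun d =>
        2 * (T d).1 + (M + 1 - ((T d).1 + (T d).2))
      have hι : ∀ d, ι d = 2 * (T d).1 + (M + 1 - ((T d).1 + (T d).2)) := fun d => rfl
      have hb : ∀ d : {d // M ≤ diagF T d}, M ≤ (T d).1 + (T d).2 := fun d => d.2
      have H : Zig M (fun d : {d // M ≤ diagF T d} => T d) ι := by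
        refine ⟨?_, ?_, ?_, ?_⟩
        · intro d e h
          have a1 := hb d
          have a2 := hb e
          have a3 := hlt d
          have a4 := hlt e
          rw [hι, hι] at h
          apply Subtype.val_injective
          apply hT
          exact Prod.ext (by omega) (by omega)
        · intro d
          have a1 := hb d
          have a3 := hlt d
          rw [hι]
          omega
        · intro i hi
          obtain ⟨d, hd⟩ := (hm (i / 2, M + 1 - (i + 1) / 2)).mp (by simp only; omega)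
          refine ⟨⟨d, by rw [diagF, hd]; simp only; omega⟩, ?_⟩
          rw [hι]
          simp only [hd]
          omega
        · intro d
          have a1 := hb d
          have a3 := hlt d
          rw [hι]
          exact Prod.ext (by simp only; omega) (by simp only; omega)
      obtain ⟨τ2, f2, s2⟩ := inner M (by omega) μ (by rw [H.card]; omega)
      obtain ⟨τ1, f1, hmono⟩ := exists_sorted_fill ι H.inj H.lt H.surj (ν.cells \ μ.cells) (by
        rw [Finset.card_sdiff_of_subset (YoungDiagram.cells_subset_iff.mpr hμν)]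
        unfold YoungDiagram.card at hc
        omega)
      refine supp_step T M hμν τ1 τ2 f1 f2 (H.supp τ1 hmono ?_) s2
      intro d e hne h h4
      have a1 := Finset.mem_sdiff.mp ((f1.2 _).mpr ⟨d, rfl⟩)
      have a2 := Finset.mem_sdiff.mp ((f1.2 _).mpr ⟨e, rfl⟩)
      have b1 := hs (τ1 d).1 (τ1 d).2 a1.2
      have b2 := hs (τ1 e).1 (τ1 e).2 a2.2
      unfold colF at h
      unfold rowF at h4
      have hne' : (τ1 d).1 ≠ (τ1 e).1 := fun h' => hne (f1.1 (Prod.ext h' h))
      rcases Nat.lt_or_gt_of_ne hne' with hl | hl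
      · exact b1 (ν.up_left_mem (by omega) h.le a2.1)
      · exact b2 (ν.up_left_mem (by omega) h.ge a1.1)
    · obtain ⟨τ0, hτ0⟩ := exists_fill (D := D) ν.cells hν
      apply supp_dominance hT hm ν.cells τ0 hτ0
      intro k
      have e : cge (colF τ0) k = (ν.cells.filter (fun c => k ≤ c.2)).card :=
        hτ0.card_filter (fun c => k ≤ c.2)
      rw [e]
      by_cases hk : k ≤ m
      · have a1 := dominance_bound ν m hN (by omega) (by omega) k (m - k) (by omega)
        have a2 := cge_row_staircase hT hm (m - k) k (by omega)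
        omega
      · have a1 := dominance_bound ν m hN (by omega) (by omega) m 0 (by omega)
        have a2 : (ν.cells.filter (fun c => k ≤ c.2)).card
            ≤ (ν.cells.filter (fun c => m ≤ c.2)).card := by
          apply Finset.card_le_card
          intro c hc
          rw [Finset.mem_filter] at hc ⊢
          exact ⟨hc.1, by omega⟩
        omega

end Vale.Agent.P197
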