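import Vale.Agent.P197.Defs
import Vale.Agent.P197.Young

/-! From the elementary model to Specht modules. -/

namespace Vale.Agent.P197

open Equiv Finset

set_option linter.unusedSectionVars false

section Real

variable {D : Type} [Fintype D] [DecidableEq D]

lemma exists_bab_ne_zero (τ : D → ℕ × ℕ) (ψ : Perm D → ℝ) (h : ys τ ψ ≠ 0) :
    ∃ k : Perm D, ∑ g : Perm D, altD (colF τ) (rowF τ) (rowF τ ∘ ⇑g⁻¹) *
      ∑ q ∈ stab (colF τ), sg q * ψ (k * g * q) ≠ 0 := by
  by_contra hcon
  push Not at hcon
  let U : Perm D → ℝ := fun k => ∑ q ∈ stab (colF τ), sg q * ψ (k * q)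
  let Y : Perm D → ℝ := fun k => ∑ p ∈ stab (rowF τ), U (k * p)
  have z1 : ∀ k, ∑ q ∈ stab (colF τ), sg q * Y (k * q) = 0 := by
    intro k
    rw [← hcon k]
    simp only [altD, Finset.sum_mul]
    rw [Finset.sum_comm]
    refine Finset.sum_congr rfl fun q _ => ?_
    rw [← Equiv.sum_comp (Equiv.mulLeft q)]
    simp only [Equiv.coe_mulLeft]
    have a2 : ∀ g : Perm D, (∀ d, (rowF τ ∘ ⇑(q * g)⁻¹) (q d) = rowF τ d)
        ↔ g ∈ stab (rowF τ) := by
      intro g
      have : (∀ d, (rowF τ ∘ ⇑(q * g)⁻¹) (q d) = rowF τ d) ↔ g⁻¹ ∈ stab (rowF τ) := by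
        rw [mem_stab]
        simp
      rw [this]
      exact ⟨fun h => inv_inv g ▸ inv_mem_stab h, inv_mem_stab⟩
    simp only [a2, ite_mul, zero_mul]
    rw [← Finset.sum_filter, Finset.filter_mem_eq_inter, Finset.univ_inter, ← Finset.mul_sum]
    simp only [Y, U, mul_assoc]
  have z2 : ∑ k, Y k * U k = 0 := by
    have : ∑ k, Y k * U k = ∑ k, (∑ q ∈ stab (colF τ), sg q * Y (k * q)) * ψ k := by
      simp only [U, Finset.mul_sum, Finset.sum_mul]
      rw [Finset.sum_comm, Finset.sum_comm (s := univ), ← sum_stab_inv]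
      refine Finset.sum_congr rfl fun q _ => ?_
      rw [← Equiv.sum_comp (Equiv.mulRight q)]
      refine Finset.sum_congr rfl fun k _ => ?_
      simp only [Equiv.coe_mulRight, sg_inv, mul_inv_cancel_right]
      ring
    rw [this]
    simp [z1]
  have z3 : ∑ k, Y k * Y k = 0 := by
    have a1 : ∀ p ∈ stab (rowF τ), ∑ k, Y k * U (k * p) = ∑ k, Y k * U k := by
      intro p hp
      rw [← Equiv.sum_comp (Equiv.mulRight p) (fun k => Y k * U k)]
      refine Finset.sum_congr rfl fun k _ => ?_
      simp only [Equiv.coe_mulRight]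
      congr 1
      simp only [Y, mul_assoc]
      exact (sum_stab_mul_left hp (fun r => U (k * r))).symm
    calc ∑ k, Y k * Y k = ∑ k, ∑ p ∈ stab (rowF τ), Y k * U (k * p) := by
          refine Finset.sum_congr rfl fun k _ => ?_
          rw [← Finset.mul_sum]
      _ = 0 := by
          rw [Finset.sum_comm, Finset.sum_congr rfl a1, z2]
          simp
  have z4 := (Finset.sum_eq_zero_iff_of_nonneg (fun k _ => mul_self_nonneg (Y k))).mp z3 1
    (mem_univ _)
  apply h
  have z5 := mul_self_eq_zero.mp z4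
  simpa [Y, U, ys] using z5

lemma altD_reflect (m : ℕ) (c a s : D → ℕ) (ha : ∀ d, a d < m) (hs : ∀ d, s d < m) :
    altD c (fun d => m - 1 - a d) (fun d => m - 1 - s d) = altD c a s := by
  unfold altD
  refine Finset.sum_congr rfl fun q _ => ?_
  have : (∀ d, m - 1 - s (q d) = m - 1 - a d) ↔ ∀ d, s (q d) = a d := by
    refine forall_congr' fun d => ?_
    have := ha d
    have := hs (q d)
    omega
  simp only [this]

end Real

variable {n : ℕ}

lemma tabloidRep_apply (g : Perm (Fin n)) (f : (Fin n → ℕ) →₀ ℂ) (s : Fin n → ℕ) :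
    tabloidRep n g f s = f (s ∘ g) := by
  have hinj : Function.Injective (fun x : Fin n → ℕ => x ∘ ⇑g⁻¹) := by
    intro a b h
    funext d
    simpa using congrFun h (g d)
  have := Finsupp.mapDomain_apply hinj f (s ∘ g)
  have e : (s ∘ ⇑g) ∘ ⇑g⁻¹ = s := by
    funext d
    simp
  simp only [e] at this
  exact this

lemma columnGroup_eq {μ : YoungDiagram} (t : Tableau n μ) : columnGroup t = stab (colOf t) := by
  ext q
  rw [mem_columnGroup, mem_stab]

lemma polytabloid_apply {μ : YoungDiagram} (t : Tableau n μ) (s : Fin n → ℕ) :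
    polytabloid t s = (altD (colOf t) (rowOf t) s : ℝ) := by
  unfold polytabloid altD
  rw [Finsupp.finsetSum_apply, columnGroup_eq, Complex.ofReal_sum]
  refine Finset.sum_congr rfl fun q _ => ?_
  rw [Finsupp.smul_apply, tabloidRep_apply, Finsupp.single_apply]
  have : rowOf t = s ∘ q ↔ ∀ d, s (q d) = rowOf t d :=
    ⟨fun h d => (congrFun h d).symm, fun h => funext fun d => (h d).symm⟩
  simp only [this]
  split_ifs <;> simp [sg]

/-- The tableau of a filling. -/
noncomputable def toTab {μ : YoungDiagram} (τ : Fin n → ℕ × ℕ) (h : IsFill τ μ.cells) :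
    Tableau n μ :=
  Equiv.ofBijective (fun d => ⟨τ d, (h.2 _).mpr ⟨d, rfl⟩⟩)
    ⟨fun _ _ hd => h.1 (congrArg Subtype.val hd), fun c => by
      obtain ⟨d, hd⟩ := (h.2 c).mp c.2
      exact ⟨d, Subtype.ext hd⟩⟩

lemma rowOf_toTab {μ : YoungDiagram} (τ : Fin n → ℕ × ℕ) (h : IsFill τ μ.cells) :
    rowOf (toTab τ h) = rowF τ := rfl

lemma colOf_toTab {μ : YoungDiagram} (τ : Fin n → ℕ × ℕ) (h : IsFill τ μ.cells) :
    colOf (toTab τ h) = colF τ := rfl

/-- The polytabloid as an element of the Specht module. -/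
noncomputable def ee {μ : YoungDiagram} (t : Tableau n μ) : (spechtModule n μ).toSubmodule :=
  ⟨polytabloid t, Submodule.subset_span ⟨t, rfl⟩⟩

lemma spechtFinite (μ : YoungDiagram) : Module.Finite ℂ (spechtModule n μ).toSubmodule :=
  Module.Finite.span_of_finite ℂ (Set.finite_range _)

/-- Coefficient functional on a tensor product of Specht modules. -/
noncomputable def coef (l μ : YoungDiagram) (s t : Fin n → ℕ) :
    TensorProduct ℂ (spechtModule n l).toSubmodule (spechtModule n μ).toSubmodule →ₗ[ℂ] ℂ :=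
  TensorProduct.lift ((LinearMap.mul ℂ ℂ).compl₁₂
    ((Finsupp.lapply s).comp (spechtModule n l).toSubmodule.subtype)
    ((Finsupp.lapply t).comp (spechtModule n μ).toSubmodule.subtype))

lemma coef_tmul (l μ : YoungDiagram) (s t : Fin n → ℕ) (a : (spechtModule n l).toSubmodule)
    (b : (spechtModule n μ).toSubmodule) :
    coef l μ s t (a ⊗ₜ b) = (a : (Fin n → ℕ) →₀ ℂ) s * (b : (Fin n → ℕ) →₀ ℂ) t := by
  simp [coef]

lemma specht_apply (μ : YoungDiagram) (g : Perm (Fin n)) (a : (spechtModule n μ).toSubmodule) :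
    (((spechtModule n μ).toRepresentation g a : (spechtModule n μ).toSubmodule) :
      (Fin n → ℕ) →₀ ℂ) = tabloidRep n g a := rfl

lemma coef_act (l μ : YoungDiagram) (s t : Fin n → ℕ) (g : Perm (Fin n))
    (u : TensorProduct ℂ (spechtModule n l).toSubmodule (spechtModule n μ).toSubmodule) :
    coef l μ s t (((spechtModule n l).toRepresentation.tprod (spechtModule n μ).toRepresentation)
      g u) = coef l μ (s ∘ g) (t ∘ g) u := by
  induction u using TensorProduct.induction_on with
  | zero => simp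
  | tmul a b =>
    rw [Representation.tprod_apply, TensorProduct.map_tmul, coef_tmul, coef_tmul, specht_apply,
      specht_apply, tabloidRep_apply, tabloidRep_apply]
  | add a b ha hb => rw [map_add, map_add, map_add, ha, hb]

/-- The equivariant map out of a Specht module attached to a row assignment and a vector. -/
noncomputable def frob {W : Type} [AddCommMonoid W] [Module ℂ W]
    (σ : Representation ℂ (Perm (Fin n)) W) (ν : YoungDiagram) (r : Fin n → ℕ) (u : W) :
    Representation.IntertwiningMap (spechtModule n ν).toRepresentation σ :=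
  LinearMap.intertwiningMap_of_isIntertwiningMap _ _
    (∑ g : Perm (Fin n), ((Finsupp.lapply (r ∘ ⇑g⁻¹)).comp
      (spechtModule n ν).toSubmodule.subtype).smulRight (σ g u)) (by
    intro h a
    simp only [LinearMap.sum_apply, LinearMap.smulRight_apply, LinearMap.comp_apply,
      Submodule.subtype_apply, Finsupp.lapply_apply, map_sum, map_smul, specht_apply,
      tabloidRep_apply]
    rw [← Equiv.sum_comp (Equiv.mulLeft h)]
    refine Finset.sum_congr rfl fun g _ => ?_
    simp only [Equiv.coe_mulLeft, map_mul, Module.End.mul_apply]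
    congr 2
    funext d
    simp)

lemma frob_apply {W : Type} [AddCommMonoid W] [Module ℂ W]
    (σ : Representation ℂ (Perm (Fin n)) W) (ν : YoungDiagram) (r : Fin n → ℕ) (u : W)
    (a : (spechtModule n ν).toSubmodule) :
    frob σ ν r u a = ∑ g : Perm (Fin n), (a : (Fin n → ℕ) →₀ ℂ) (r ∘ ⇑g⁻¹) • σ g u := by
  simp [frob, LinearMap.sum_apply]

lemma homDim_pos {G V W : Type} [Group G] [AddCommMonoid V] [Module ℂ V] [AddCommMonoid W]
    [Module ℂ W] [Module.Finite ℂ V] [Module.Finite ℂ W] (ρ : Representation ℂ G V)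
    (σ : Representation ℂ G W) (f : Representation.IntertwiningMap ρ σ) (a : V) (h : f a ≠ 0) :
    0 < homDim ρ σ := by
  let : AddCommGroup V := Module.addCommMonoidToAddCommGroup ℂ
  let : AddCommGroup W := Module.addCommMonoidToAddCommGroup ℂ
  let L : Representation.IntertwiningMap ρ σ →ₗ[ℂ] (V →ₗ[ℂ] W) :=
    { toFun := fun f => f.toLinearMap
      map_add' := fun _ _ => rfl
      map_smul' := fun _ _ => rfl }
  have : Module.Finite ℂ (Representation.IntertwiningMap ρ σ) :=
    Module.Finite.of_injective L (Representation.IntertwiningMap.toLinearMap_injective ρ σ)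
  unfold homDim
  rw [Module.finrank_pos_iff_exists_ne_zero]
  refine ⟨f, fun h0 => h ?_⟩
  rw [h0]
  rfl

lemma mem_staircase (m : ℕ) (c : ℕ × ℕ) : c ∈ (staircase m).cells ↔ c.1 + c.2 < m := by
  simp only [staircase, mem_filter, mem_product, mem_range]
  omega

lemma card_staircase (m : ℕ) : (staircase m).card = m * (m + 1) / 2 := by
  obtain ⟨T, hT⟩ := exists_fill (D := Fin (staircase m).card) (staircase m).cells (by simp)
  have h := cge_row_staircase hT.1 (fun c => by rw [← hT.2, mem_staircase]) m 0 (by omega)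
  have h' : cge (rowF T) 0 = (staircase m).card := by simp [cge]
  rw [h'] at h
  omega

theorem saxl (m : ℕ) (ν : YoungDiagram) (hν : ν.card = m * (m + 1) / 2) :
    0 < kronecker (m * (m + 1) / 2) (staircase m) (staircase m) ν := by
  set n := m * (m + 1) / 2 with hn
  obtain ⟨T, hT⟩ := exists_fill (D := Fin n) (staircase m).cells (by
    rw [Fintype.card_fin]; exact card_staircase m)
  have hm : ∀ c : ℕ × ℕ, c.1 + c.2 < m ↔ ∃ d, T d = c := fun c => by rw [← hT.2, mem_staircase]
  have hlt : ∀ d, (T d).1 + (T d).2 < m := fun d => (hm (T d)).mpr ⟨d, rfl⟩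
  obtain ⟨τ, hτ, x, hx⟩ := supp_all m (Fin n) T hT.1 hm ν (by simpa using hν)
  have f1 : IsFill (fun d => (m - 1 - diagF T d, colF T d)) (staircase m).cells := by
    refine ⟨fun d e h => ?_, fun c => ?_⟩
    · have a1 := hlt d
      have a2 := hlt e
      simp only [Prod.mk.injEq, diagF, colF] at h
      exact hT.1 (Prod.ext (by omega) h.2)
    · rw [mem_staircase]
      constructor
      · intro hc
        obtain ⟨d, hd⟩ := (hm (m - 1 - c.1 - c.2, c.2)).mp (by simp only; omega)
        refine ⟨d, Prod.ext ?_ ?_⟩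
        · simp only [diagF, hd]; omega
        · simp only [colF, hd]
      · rintro ⟨d, rfl⟩
        have a1 := hlt d
        simp only [diagF, colF]
        omega
  have f2 : IsFill (fun d => (m - 1 - diagF T d, rowF T d)) (staircase m).cells := by
    refine ⟨fun d e h => ?_, fun c => ?_⟩
    · have a1 := hlt d
      have a2 := hlt e
      simp only [Prod.mk.injEq, diagF, rowF] at h
      exact hT.1 (Prod.ext h.2 (by omega))
    · rw [mem_staircase]
      constructor
      · intro hc
        obtain ⟨d, hd⟩ := (hm (c.2, m - 1 - c.1 - c.2)).mp (by simp only; omega)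
        refine ⟨d, Prod.ext ?_ ?_⟩
        · simp only [diagF, hd]; omega
        · simp only [rowF, hd]
      · rintro ⟨d, rfl⟩
        have a1 := hlt d
        simp only [diagF, rowF]
        omega
  let σ := (spechtModule n (staircase m)).toRepresentation.tprod
    (spechtModule n (staircase m)).toRepresentation
  let v := ee (toTab _ f1) ⊗ₜ[ℂ] ee (toTab _ f2)
  let s0 : Fin n → ℕ := fun d => m - 1 - rowF x d
  let t0 : Fin n → ℕ := fun d => m - 1 - colF x d
  have hr : ∀ d, rowF x d < m := fun d => by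
    obtain ⟨e, he⟩ := (labels_of_ys_ne_zero hx d).1
    rw [he]; exact hlt e
  have hc : ∀ d, colF x d < m := fun d => by
    obtain ⟨e, he⟩ := (labels_of_ys_ne_zero hx d).2
    rw [he]; exact hlt e
  have c1 : ∀ g : Perm (Fin n), coef _ _ (s0 ∘ g) (t0 ∘ g) v = (vv T (x ∘ g) : ℝ) := by
    intro g
    rw [coef_tmul]
    simp only [ee, polytabloid_apply, rowOf_toTab, colOf_toTab]
    rw [vv, Complex.ofReal_mul, ← altD_reflect m (colF T) (diagF T) (rowF (x ∘ g)) hlt
      (fun d => hr (g d)), ← altD_reflect m (rowF T) (diagF T) (colF (x ∘ g)) hlt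
      (fun d => hc (g d))]
    rfl
  let u := ∑ q ∈ stab (colF τ), ((sg q : ℝ) : ℂ) • σ q v
  obtain ⟨k, hk⟩ := exists_bab_ne_zero τ _ hx
  have := spechtFinite (n := n) ν
  have := spechtFinite (n := n) (staircase m)
  apply homDim_pos _ _ (frob σ ν (rowF τ) u) (ee (toTab τ hτ))
  intro h0
  apply hk
  have c2 := congrArg (coef _ _ (s0 ∘ k) (t0 ∘ k)) h0
  rw [frob_apply, map_sum, map_zero] at c2
  rw [← Complex.ofReal_eq_zero, ← c2, Complex.ofReal_sum]
  refine Finset.sum_congr rfl fun g _ => ?_
  rw [map_smul, coef_act, smul_eq_mul, Complex.ofReal_mul]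
  congr 1
  · simp only [ee, polytabloid_apply, rowOf_toTab, colOf_toTab]
  · simp only [u, map_sum, map_smul, Complex.ofReal_sum, Complex.ofReal_mul, smul_eq_mul]
    refine Finset.sum_congr rfl fun q _ => ?_
    rw [coef_act, ← c1]
    rfl

end Vale.Agent.P197
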