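import Vale.Agent.P197.Basic

/-! The outer antidiagonal and the outer zigzag band. -/

namespace Vale.Agent.P197

open Equiv Finset

set_option linter.unusedSectionVars false

variable {D : Type} [Fintype D] [DecidableEq D]

theorem supp_diag (T τ : D → ℕ × ℕ) (k : ℕ) (hT : Function.Injective T)
    (hk : ∀ d, diagF T d = k) (hτ : Function.Injective (colF τ)) : Supp T τ := by
  have hr : Function.Injective (rowF T) := by
    intro d e h
    apply hT
    have h1 := hk d
    have h2 := hk e
    unfold rowF at h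
    unfold diagF at h1 h2
    exact Prod.ext h (by omega)
  have hc : Function.Injective (colF T) := by
    intro d e h
    apply hT
    have h1 := hk d
    have h2 := hk e
    unfold colF at h
    unfold diagF at h1 h2
    exact Prod.ext (by omega) h
  refine ⟨fun _ => (k, k), ?_⟩
  have : ∀ g : Perm D, vv T ((fun _ => (k, k)) ∘ g) = 1 := by
    intro g
    unfold vv altD
    rw [stab_eq_singleton hr, stab_eq_singleton hc]
    simp [rowF, colF, hk]
  unfold ys
  rw [stab_eq_singleton hτ]
  simp only [this, sum_singleton, sg_one, mul_one, sum_const, nsmul_eq_mul]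
  exact (card_stab_pos _).ne'

lemma altD_ne_zero_distinct {c a s : D → ℕ} (hinj : ∀ d d', c d = c d' → a d = a d' → d = d')
    (h : altD c a s ≠ 0) {d e : D} (hde : d ≠ e) (hc : c d = c e) : s d ≠ s e := by
  obtain ⟨q, hq, hs⟩ := altD_ne_zero h
  intro hse
  apply hde
  have h1 := hs (q⁻¹ d)
  have h2 := hs (q⁻¹ e)
  simp only [Perm.coe_inv, Equiv.apply_symm_apply] at h1 h2
  have : q⁻¹ d = q⁻¹ e := by
    apply hinj
    · rw [mem_stab.mp (inv_mem_stab hq), mem_stab.mp (inv_mem_stab hq), hc]
    · simp only [Perm.coe_inv]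
      rw [← h1, ← h2, hse]
  exact q⁻¹.injective this

lemma altD_ne_zero_single {c a s : D → ℕ} (h : altD c a s ≠ 0) {d : D}
    (hd : ∀ e, c e = c d → e = d) : s d = a d := by
  obtain ⟨q, hq, hs⟩ := altD_ne_zero h
  have := hd (q d) (mem_stab.mp hq d)
  rw [← hs d, this]

/-- Four signed permutation matrices, pairwise orthogonal for the determinant form. -/
def uu (a : Fin 4) (z : Bool × Bool) : ℤ :=
  if z.2 = xor z.1 (decide (2 ≤ a.val)) then (if a.val % 2 = 1 ∧ z.1 = false then -1 else 1) else 0

lemma uu_orth2 : ∀ a b : Fin 4, a ≠ b → ∀ s s' t t' : Bool,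
    uu a (s, t') * uu b (s', t) + uu b (s, t') * uu a (s', t)
      = uu a (s, t) * uu b (s', t') + uu b (s, t) * uu a (s', t') := by decide

lemma uu_orth1 : ∀ a b : Fin 4, a ≠ b → ∀ s s' t t' : Bool,
    uu a (s', t) * uu b (s, t') + uu b (s', t) * uu a (s, t')
      = uu a (s, t) * uu b (s', t') + uu b (s, t) * uu a (s', t') := by decide

lemma uu_ne_zero : ∀ (a : Fin 4) (z : Bool × Bool),
    uu a z ≠ 0 ↔ z.2 = xor z.1 (decide (2 ≤ a.val)) := by decide

/-- The two labels of the band. -/
def lab (M : ℕ) (b : Bool) : ℕ := if b then M + 1 else M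

lemma lab_inj (M : ℕ) : Function.Injective (lab M) := by
  intro a b h
  cases a <;> cases b <;> simp [lab] at h ⊢

/-- Labelings by pairs of Booleans as labelings by pairs of numbers. -/
def emb (M : ℕ) (x : D → Bool × Bool) (d : D) : ℕ × ℕ := (lab M (x d).1, lab M (x d).2)

/-- Product vector of a word. -/
def yy (w : D → Fin 4) (x : D → Bool × Bool) : ℝ := ∏ d, (uu (w d) (x d) : ℝ)

/-- Pairing of the band tensor with the product vector of a word. -/
def zz (M : ℕ) (T : D → ℕ × ℕ) (w : D → Fin 4) : ℝ := ∑ x, yy w x * vv T (emb M x)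

lemma zz_comp (M : ℕ) (T : D → ℕ × ℕ) (w : D → Fin 4) (g : Perm D) :
    ∑ x : D → Bool × Bool, yy w x * vv T (emb M x ∘ g) = zz M T (w ∘ g) := by
  unfold zz
  refine Fintype.sum_equiv (Equiv.arrowCongr g.symm (Equiv.refl _)) _ _ fun x => ?_
  have e : (Equiv.arrowCongr g.symm (Equiv.refl (Bool × Bool))) x = x ∘ g := by
    funext d
    simp [Equiv.arrowCongr]
  rw [e]
  congr 1
  unfold yy
  exact (Equiv.prod_comp g (fun d => (uu (w d) (x d) : ℝ))).symm

lemma sum_eq_zero_of_invol {X : Type} [Fintype X] (κ : X → X) (hκ : Function.Involutive κ)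
    (F V : X → ℝ) (hF : ∀ x, F (κ x) = F x) (hV : ∀ x, V (κ x) = - V x) :
    ∑ x, F x * V x = 0 := by
  have h := Equiv.sum_comp hκ.toPerm (fun x => F x * V x)
  simp only [Function.Involutive.coe_toPerm, hF, hV, mul_neg, sum_neg_distrib] at h
  linarith

lemma prod_split_two {a b : D} (hab : a ≠ b) (f : D → ℝ) :
    ∏ d, f d = f a * f b * ∏ d ∈ (univ.erase a).erase b, f d := by
  rw [mul_assoc, Finset.mul_prod_erase _ _ (by simp [hab.symm]),
    Finset.mul_prod_erase _ _ (mem_univ a)]

lemma zz_swap_row (M : ℕ) (T : D → ℕ × ℕ) (w : D → Fin 4) {a b : D} (hab : a ≠ b)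
    (hr : rowF T a = rowF T b) (hw : w a ≠ w b) : zz M T (w ∘ swap a b) = - zz M T w := by
  have key := sum_eq_zero_of_invol
    (fun (x : D → Bool × Bool) d => ((x d).1, (x (swap a b d)).2)) (by intro x; funext d; simp)
    (fun x => yy w x + yy (w ∘ swap a b) x) (fun x => vv T (emb M x)) ?_ ?_
  · simp only [add_mul, sum_add_distrib] at key
    unfold zz
    linarith
  · intro x
    unfold yy
    simp only [prod_split_two hab, Function.comp_apply, swap_apply_left, swap_apply_right]
    have e1 : ∀ d ∈ (univ.erase a).erase b, swap a b d = d := by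
      intro d hd
      simp only [mem_erase] at hd
      exact swap_apply_of_ne_of_ne hd.2.1 hd.1
    rw [Finset.prod_congr rfl (fun d hd => by rw [e1 d hd] :
        ∀ d ∈ (univ.erase a).erase b, (uu (w d) ((x d).1, (x (swap a b d)).2) : ℝ)
          = (uu (w d) (x d) : ℝ)),
      Finset.prod_congr rfl (fun d hd => by rw [e1 d hd] :
        ∀ d ∈ (univ.erase a).erase b, (uu (w (swap a b d)) ((x d).1, (x (swap a b d)).2) : ℝ)
          = (uu (w d) (x d) : ℝ)),
      Finset.prod_congr rfl (fun d hd => by rw [e1 d hd] :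
        ∀ d ∈ (univ.erase a).erase b, (uu (w (swap a b d)) (x d) : ℝ)
          = (uu (w d) (x d) : ℝ))]
    have h := uu_orth2 (w a) (w b) hw (x a).1 (x b).1 (x a).2 (x b).2
    have h' := congrArg (fun z : ℤ => (z : ℝ)) h
    simp only [Int.cast_add, Int.cast_mul, Prod.mk.eta] at h'
    rw [← add_mul, ← add_mul, h']
  · intro x
    unfold vv
    have e1 : rowF (emb M (fun d => ((x d).1, (x (swap a b d)).2))) = rowF (emb M x) := rfl
    have e2 : colF (emb M (fun d => ((x d).1, (x (swap a b d)).2)))
        = colF (emb M x) ∘ swap a b := rfl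
    simp only [e1, e2]
    rw [altD_comp (swap_mem_stab hr), sg_swap hab]
    ring

lemma zz_swap_col (M : ℕ) (T : D → ℕ × ℕ) (w : D → Fin 4) {a b : D} (hab : a ≠ b)
    (hr : colF T a = colF T b) (hw : w a ≠ w b) : zz M T (w ∘ swap a b) = - zz M T w := by
  have key := sum_eq_zero_of_invol
    (fun (x : D → Bool × Bool) d => ((x (swap a b d)).1, (x d).2)) (by intro x; funext d; simp)
    (fun x => yy w x + yy (w ∘ swap a b) x) (fun x => vv T (emb M x)) ?_ ?_
  · simp only [add_mul, sum_add_distrib] at key
    unfold zz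
    linarith
  · intro x
    unfold yy
    simp only [prod_split_two hab, Function.comp_apply, swap_apply_left, swap_apply_right]
    have e1 : ∀ d ∈ (univ.erase a).erase b, swap a b d = d := by
      intro d hd
      simp only [mem_erase] at hd
      exact swap_apply_of_ne_of_ne hd.2.1 hd.1
    rw [Finset.prod_congr rfl (fun d hd => by rw [e1 d hd] :
        ∀ d ∈ (univ.erase a).erase b, (uu (w d) ((x (swap a b d)).1, (x d).2) : ℝ)
          = (uu (w d) (x d) : ℝ)),
      Finset.prod_congr rfl (fun d hd => by rw [e1 d hd] :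
        ∀ d ∈ (univ.erase a).erase b, (uu (w (swap a b d)) ((x (swap a b d)).1, (x d).2) : ℝ)
          = (uu (w d) (x d) : ℝ)),
      Finset.prod_congr rfl (fun d hd => by rw [e1 d hd] :
        ∀ d ∈ (univ.erase a).erase b, (uu (w (swap a b d)) (x d) : ℝ)
          = (uu (w d) (x d) : ℝ))]
    have h := uu_orth1 (w a) (w b) hw (x a).1 (x b).1 (x a).2 (x b).2
    have h' := congrArg (fun z : ℤ => (z : ℝ)) h
    simp only [Int.cast_add, Int.cast_mul, Prod.mk.eta] at h'
    rw [← add_mul, ← add_mul, h']
  · intro x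
    unfold vv
    have e1 : rowF (emb M (fun d => ((x (swap a b d)).1, (x d).2)))
        = rowF (emb M x) ∘ swap a b := rfl
    have e2 : colF (emb M (fun d => ((x (swap a b d)).1, (x d).2))) = colF (emb M x) := rfl
    simp only [e1, e2]
    rw [altD_comp (swap_mem_stab hr), sg_swap hab]
    ring

/-- The zigzag band, indexed along its path. -/
structure Zig (M : ℕ) (T : D → ℕ × ℕ) (ι : D → ℕ) : Prop where
  inj : Function.Injective ι
  lt : ∀ d, ι d < 2 * M + 3
  surj : ∀ i, i < 2 * M + 3 → ∃ d, ι d = i
  pos : ∀ d, T d = (ι d / 2, M + 1 - (ι d + 1) / 2)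

section Zig

variable {M : ℕ} {T : D → ℕ × ℕ} {ι : D → ℕ} (H : Zig M T ι)
include H

lemma Zig.row (d : D) : rowF T d = ι d / 2 := by rw [rowF, H.pos]

lemma Zig.col (d : D) : colF T d = M + 1 - (ι d + 1) / 2 := by rw [colF, H.pos]

lemma Zig.diag (d : D) : diagF T d = M + 1 - ι d % 2 := by
  have := H.lt d
  rw [diagF, H.pos]
  simp only
  omega

lemma Zig.col_diag_inj (d d' : D) (h1 : colF T d = colF T d') (h2 : diagF T d = diagF T d') :
    d = d' := by
  apply H.inj
  have := H.lt d
  have := H.lt d'
  rw [H.col, H.col] at h1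
  rw [H.diag, H.diag] at h2
  omega

lemma Zig.row_diag_inj (d d' : D) (h1 : rowF T d = rowF T d') (h2 : diagF T d = diagF T d') :
    d = d' := by
  apply H.inj
  rw [H.row, H.row] at h1
  rw [H.diag, H.diag] at h2
  omega

lemma Zig.swap_adj (w : D → Fin 4) {a b : D} (hab : ι b = ι a + 1) (hw : w a ≠ w b) :
    zz M T (w ∘ swap a b) = - zz M T w := by
  have hne : a ≠ b := by
    rintro rfl
    omega
  rcases Nat.mod_two_eq_zero_or_one (ι a) with h | h
  · apply zz_swap_row M T w hne _ hw
    rw [H.row, H.row]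
    omega
  · apply zz_swap_col M T w hne _ hw
    rw [H.col, H.col]
    omega

lemma Zig.swap_block (c : D → ℕ) (hmono : ∀ d d', ι d ≤ ι d' → c d ≤ c d') (k : ℕ) :
    ∀ a b : D, ι b = ι a + k + 1 → c a = c b → ∀ w : D → Fin 4,
      (∀ d d', d ≠ d' → c d = c d' → w d ≠ w d') → zz M T (w ∘ swap a b) = - zz M T w := by
  have good : ∀ (w : D → Fin 4) (g : Perm D), g ∈ stab c →
      (∀ d d', d ≠ d' → c d = c d' → w d ≠ w d') →
      (∀ d d', d ≠ d' → c d = c d' → (w ∘ g) d ≠ (w ∘ g) d') := by
    intro w g hg hw d d' hne hc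
    apply hw _ _ (g.injective.ne hne)
    rw [mem_stab.mp hg, mem_stab.mp hg, hc]
  induction k with
  | zero =>
    intro a b hab hc w hw
    apply H.swap_adj w hab
    apply hw _ _ _ hc
    rintro rfl
    omega
  | succ k ih =>
    intro a b hab hc w hw
    obtain ⟨e, he⟩ := H.surj (ι a + 1) (by have := H.lt b; omega)
    have hce : c a = c e := by
      have h1 := hmono a e (by omega)
      have h2 := hmono e b (by omega)
      omega
    have hae : a ≠ e := by
      rintro rfl
      omega
    have hbe : b ≠ e := by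
      rintro rfl
      omega
    have hba : b ≠ a := by
      rintro rfl
      omega
    have hs : swap a b = swap a e * swap e b * swap a e := by
      have := swap_mul_swap_mul_swap hbe hba
      rw [swap_comm e a, swap_comm b e] at this
      exact this.symm
    have g1 := good w _ (swap_mem_stab hce) hw
    have g2 := good _ _ (swap_mem_stab (hce.symm.trans hc)) g1
    have e1 : w ∘ swap a b = ((w ∘ swap a e) ∘ swap e b) ∘ swap a e := by
      rw [hs]; rfl
    rw [e1, H.swap_adj _ he (g2 _ _ hae hce), ih e b (by omega) (hce.symm.trans hc) _ g1,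
      H.swap_adj _ he (hw _ _ hae hce)]
    ring

lemma Zig.zz_stab (c : D → ℕ) (hmono : ∀ d d', ι d ≤ ι d' → c d ≤ c d') :
    ∀ q ∈ stab c, ∀ w : D → Fin 4, (∀ d d', d ≠ d' → c d = c d' → w d ≠ w d') →
      zz M T (w ∘ q) = sg q * zz M T w := by
  apply stab_induction
  · intro w _
    simp
  · intro a b g hab hc hg ih w hw
    have e1 : w ∘ ⇑(swap a b * g) = (w ∘ swap a b) ∘ g := rfl
    have hsw : zz M T (w ∘ swap a b) = - zz M T w := by
      rcases lt_trichotomy (ι a) (ι b) with h | h | h
      · exact H.swap_block c hmono (ι b - ι a - 1) a b (by omega) hc w hw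
      · exact absurd (H.inj h) hab
      · rw [swap_comm]
        exact H.swap_block c hmono (ι a - ι b - 1) b a (by omega) hc.symm w hw
    rw [e1, ih, hsw, sg_mul, sg_swap hab]
    · ring
    · intro d d' hne hcd
      apply hw _ _ ((swap a b).injective.ne hne)
      rw [mem_stab.mp (swap_mem_stab hc), mem_stab.mp (swap_mem_stab hc), hcd]

lemma Zig.unique (w : D → Fin 4) {x x' : D → Bool × Bool}
    (hx : yy w x * vv T (emb M x) ≠ 0) (hx' : yy w x' * vv T (emb M x') ≠ 0) : x = x' := by
  have facts : ∀ x : D → Bool × Bool, yy w x * vv T (emb M x) ≠ 0 →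
      (∀ d, (x d).2 = xor (x d).1 (decide (2 ≤ (w d).val))) ∧
      (∀ d, ι d = 0 → (x d).1 = true) ∧
      (∀ d e, ι e = ι d + 1 → ι d % 2 = 1 → (x e).1 ≠ (x d).1) ∧
      (∀ d e, ι e = ι d + 1 → ι d % 2 = 0 → (x e).2 ≠ (x d).2) := by
    intro x hx
    have h1 := left_ne_zero_of_mul hx
    have h2 := left_ne_zero_of_mul (right_ne_zero_of_mul hx)
    have h3 := right_ne_zero_of_mul (right_ne_zero_of_mul hx)
    refine ⟨fun d => ?_, fun d hd => ?_, fun d e hde hd => ?_, fun d e hde hd => ?_⟩
    · rw [← uu_ne_zero]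
      have := Finset.prod_ne_zero_iff.mp h1 d (mem_univ d)
      exact_mod_cast this
    · have := altD_ne_zero_single h2 (d := d) (by
        intro e he
        apply H.inj
        have := H.lt e
        rw [H.col, H.col] at he
        omega)
      rw [H.diag, hd] at this
      apply lab_inj M
      exact this
    · have := altD_ne_zero_distinct H.col_diag_inj h2 (d := e) (e := d)
        (by rintro rfl; omega) (by rw [H.col, H.col]; omega)
      intro h
      apply this
      simp only [rowF, emb, h]
    · have := altD_ne_zero_distinct H.row_diag_inj h3 (d := e) (e := d)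
        (by rintro rfl; omega) (by rw [H.row, H.row]; omega)
      intro h
      apply this
      simp only [colF, emb, h]
  obtain ⟨a1, a2, a3, a4⟩ := facts x hx
  obtain ⟨b1, b2, b3, b4⟩ := facts x' hx'
  have main : ∀ i, ∀ d, ι d = i → x d = x' d := by
    intro i
    induction i with
    | zero =>
      intro d hd
      have h1 : (x d).1 = (x' d).1 := by rw [a2 d hd, b2 d hd]
      exact Prod.ext h1 (by rw [a1, b1, h1])
    | succ i ih =>
      intro e he
      obtain ⟨d, hd⟩ := H.surj i (by have := H.lt e; omega)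
      have hdd := ih d hd
      rcases Nat.mod_two_eq_zero_or_one (ι d) with h | h
      · have p1 := a4 d e (by omega) h
        have p2 := b4 d e (by omega) h
        rw [hdd] at p1
        have h2 : (x e).2 = (x' e).2 := by
          revert p1 p2
          cases (x e).2 <;> cases (x' e).2 <;> cases (x' d).2 <;> simp
        refine Prod.ext ?_ h2
        have p3 := a1 e
        have p4 := b1 e
        rw [h2, p4] at p3
        revert p3
        cases (x e).1 <;> cases (x' e).1 <;> cases decide (2 ≤ (w e).val) <;> simp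
      · have p1 := a3 d e (by omega) h
        have p2 := b3 d e (by omega) h
        rw [hdd] at p1
        have h1 : (x e).1 = (x' e).1 := by
          revert p1 p2
          cases (x e).1 <;> cases (x' e).1 <;> cases (x' d).1 <;> simp
        exact Prod.ext h1 (by rw [a1, b1, h1])
  funext d
  exact main _ d rfl

lemma Zig.exists_sol (w : D → Fin 4)
    (hpar : (univ.filter (fun d => 2 ≤ (w d).val)).card % 2 = 0) :
    ∃ x : D → Bool × Bool, yy w x * vv T (emb M x) ≠ 0 := by
  let cnt : ℕ → ℕ := fun i => (univ.filter (fun e => ι e < i ∧ 2 ≤ (w e).val)).card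
  have hcnt : ∀ d, cnt (ι d + 1) = cnt (ι d) + (if 2 ≤ (w d).val then 1 else 0) := by
    intro d
    simp only [cnt, Finset.card_filter]
    rw [← Finset.add_sum_erase _ _ (mem_univ d), ← Finset.add_sum_erase _ _ (mem_univ d)]
    have : ∀ e ∈ univ.erase d, (if ι e < ι d + 1 ∧ 2 ≤ (w e).val then 1 else 0)
        = (if ι e < ι d ∧ 2 ≤ (w e).val then 1 else 0) := by
      intro e he
      have : ι e ≠ ι d := fun h => (Finset.mem_erase.mp he).1 (H.inj h)
      have e1 : ι e < ι d + 1 ↔ ι e < ι d := by omega
      simp only [e1]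
    rw [Finset.sum_congr rfl this]
    simp only [Nat.lt_add_one, true_and, lt_irrefl, false_and, if_false]
    omega
  have hcnt0 : cnt 0 = 0 := by simp [cnt]
  have hcntn : cnt (2 * M + 3) % 2 = 0 := by
    have : cnt (2 * M + 3) = (univ.filter (fun d => 2 ≤ (w d).val)).card := by
      simp only [cnt, H.lt, true_and]
    rw [this, hpar]
  let inn : D → Bool := fun d => decide ((ι d + cnt (ι d)) % 2 = 0)
  let out : D → Bool := fun d => xor (inn d) (decide (2 ≤ (w d).val))
  have hout : ∀ d, out d = decide ((ι d + cnt (ι d + 1)) % 2 = 0) := by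
    intro d
    simp only [out, inn, hcnt]
    by_cases h : 2 ≤ (w d).val
    · rcases Nat.mod_two_eq_zero_or_one (ι d + cnt (ι d)) with h1 | h1
      · have : (ι d + (cnt (ι d) + 1)) % 2 = 1 := by omega
        simp [h, h1, this]
      · have : (ι d + (cnt (ι d) + 1)) % 2 = 0 := by omega
        simp [h, h1, this]
    · simp [h]
  have hnext : ∀ d e, ι e = ι d + 1 → inn e = !out d := by
    intro d e he
    rw [hout]
    simp only [inn, he]
    rcases Nat.mod_two_eq_zero_or_one (ι d + cnt (ι d + 1)) with h1 | h1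
    · have : (ι d + 1 + cnt (ι d + 1)) % 2 = 1 := by omega
      simp [h1, this]
    · have : (ι d + 1 + cnt (ι d + 1)) % 2 = 0 := by omega
      simp [h1, this]
  let x : D → Bool × Bool := fun d => if ι d % 2 = 0 then (inn d, out d) else (out d, inn d)
  have xe : ∀ d, ι d % 2 = 0 → x d = (inn d, out d) := fun d h => if_pos h
  have xo : ∀ d, ι d % 2 = 1 → x d = (out d, inn d) := fun d h => if_neg (by omega)
  have pair : ∀ (c s : D → ℕ) (d e : D) (b : Bool), c d = c e → s d = lab M b →
      s e = lab M (!b) → ∀ f, c f = c d → ∃ d', c d' = c f ∧ s d' = diagF T f := by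
    intro c s d e b hc h1 h2 f hf
    have hd := H.diag f
    rcases Nat.mod_two_eq_zero_or_one (ι f) with h | h <;> cases b
    · exact ⟨e, by rw [hf, hc], by rw [h2, hd, h]; rfl⟩
    · exact ⟨d, hf.symm, by rw [h1, hd, h]; rfl⟩
    · exact ⟨d, hf.symm, by rw [h1, hd, h]; rfl⟩
    · exact ⟨e, by rw [hf, hc], by rw [h2, hd, h]; rfl⟩
  refine ⟨x, mul_ne_zero ?_ (mul_ne_zero ?_ ?_)⟩
  · unfold yy
    rw [Finset.prod_ne_zero_iff]
    intro d _
    have : uu (w d) (x d) ≠ 0 := by
      rw [uu_ne_zero]
      rcases Nat.mod_two_eq_zero_or_one (ι d) with h | h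
      · rw [xe d h]
      · rw [xo d h]
        simp only [out]
        cases inn d <;> cases decide (2 ≤ (w d).val) <;> rfl
    exact_mod_cast this
  · obtain ⟨q, hq, hs⟩ := exists_stab_of_forall (s := rowF (emb M x)) H.col_diag_inj (by
      intro f
      have hf := H.lt f
      by_cases h0 : ι f = 0
      · refine ⟨f, rfl, ?_⟩
        rw [H.diag, rowF, emb, xe f (by omega)]
        simp [inn, h0, hcnt0, lab]
      · obtain ⟨d, hd⟩ := H.surj (2 * ((ι f + 1) / 2) - 1) (by omega)
        obtain ⟨e, he⟩ := H.surj (2 * ((ι f + 1) / 2)) (by omega)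
        apply pair (colF T) (rowF (emb M x)) d e (out d)
        · rw [H.col, H.col]; omega
        · rw [rowF, emb, xo d (by omega)]
        · rw [rowF, emb, xe e (by omega), hnext d e (by omega)]
        · rw [H.col, H.col]; omega)
    rw [altD_eq_sg H.col_diag_inj hq hs]
    exact sg_ne_zero q
  · obtain ⟨q, hq, hs⟩ := exists_stab_of_forall (s := colF (emb M x)) H.row_diag_inj (by
      intro f
      have hf := H.lt f
      by_cases h0 : ι f = 2 * M + 2
      · refine ⟨f, rfl, ?_⟩
        rw [H.diag, colF, emb, xe f (by omega), hout]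
        have e1 : (ι f + cnt (ι f + 1)) % 2 = 0 := by
          rw [h0]
          have : 2 * M + 2 + 1 = 2 * M + 3 := rfl
          rw [this]
          omega
        have e2 : ι f % 2 = 0 := by omega
        simp [e1, e2, lab]
      · obtain ⟨d, hd⟩ := H.surj (2 * (ι f / 2)) (by omega)
        obtain ⟨e, he⟩ := H.surj (2 * (ι f / 2) + 1) (by omega)
        apply pair (rowF T) (colF (emb M x)) d e (out d)
        · rw [H.row, H.row]; omega
        · rw [colF, emb, xe d (by omega)]
        · rw [colF, emb, xo e (by omega), hnext d e (by omega)]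
        · rw [H.row, H.row]; omega)
    rw [altD_eq_sg H.row_diag_inj hq hs]
    exact sg_ne_zero q

lemma Zig.zz_ne_zero (w : D → Fin 4)
    (hpar : (univ.filter (fun d => 2 ≤ (w d).val)).card % 2 = 0) : zz M T w ≠ 0 := by
  obtain ⟨x, hx⟩ := H.exists_sol w hpar
  unfold zz
  rw [Finset.sum_eq_single x]
  · exact hx
  · intro y _ hy
    by_contra h
    exact hy (H.unique w h hx)
  · intro h
    exact absurd (mem_univ x) h

lemma Zig.card : Fintype.card D = 2 * M + 3 := by
  rw [← Finset.card_univ, ← Finset.card_image_of_injective univ H.inj,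
    ← Finset.card_range (2 * M + 3)]
  congr 1
  ext i
  simp only [mem_image, mem_univ, true_and, mem_range]
  constructor
  · rintro ⟨d, rfl⟩
    exact H.lt d
  · exact H.surj i

theorem Zig.supp (τ : D → ℕ × ℕ) (hmono : ∀ d d', ι d ≤ ι d' → colF τ d ≤ colF τ d')
    (h4 : ∀ d d', d ≠ d' → colF τ d = colF τ d' → rowF τ d % 4 ≠ rowF τ d' % 4) :
    Supp T τ := by
  have main : ∀ s : ℕ, (univ.filter (fun d => 2 ≤ (rowF τ d + s) % 4)).card % 2 = 0 →
      Supp T τ := by
    intro s hs
    let w : D → Fin 4 := fun d => ⟨(rowF τ d + s) % 4, Nat.mod_lt _ (by norm_num)⟩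
    have hw : ∀ d d', d ≠ d' → colF τ d = colF τ d' → w d ≠ w d' := by
      intro d d' hne hc h
      have := h4 d d' hne hc
      have h' := congrArg Fin.val h
      simp only [w] at h'
      omega
    have hz := H.zz_ne_zero w hs
    by_contra hcon
    unfold Supp at hcon
    push Not at hcon
    have h0 : ∑ x : D → Bool × Bool, yy w x * ys τ (fun g => vv T (emb M x ∘ g)) = 0 := by
      simp [hcon]
    unfold ys at h0
    simp only [Finset.mul_sum] at h0
    rw [Finset.sum_comm] at h0
    have h1 : ∀ p ∈ stab (rowF τ), ∑ x : D → Bool × Bool, ∑ q ∈ stab (colF τ),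
        yy w x * (sg q * vv T (emb M x ∘ ⇑(p * q))) = (stab (colF τ)).card * zz M T w := by
      intro p hp
      rw [Finset.sum_comm, ← nsmul_eq_mul, ← Finset.sum_const]
      refine Finset.sum_congr rfl fun q hq => ?_
      have e1 : w ∘ ⇑(p * q) = w ∘ q := by
        funext d
        simp only [w, Function.comp_apply, Perm.mul_apply, mem_stab.mp hp]
      have e2 := zz_comp M T w (p * q)
      rw [e1, H.zz_stab (colF τ) hmono q hq w hw] at e2
      calc ∑ x : D → Bool × Bool, yy w x * (sg q * vv T (emb M x ∘ ⇑(p * q)))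
          = sg q * ∑ x : D → Bool × Bool, yy w x * vv T (emb M x ∘ ⇑(p * q)) := by
            rw [Finset.mul_sum]
            exact Finset.sum_congr rfl fun x _ => by ring
        _ = zz M T w := by rw [e2, ← mul_assoc, sg_mul_self, one_mul]
    rw [Finset.sum_congr rfl h1, Finset.sum_const, nsmul_eq_mul] at h0
    exact mul_ne_zero (card_stab_pos _).ne' (mul_ne_zero (card_stab_pos _).ne' hz) h0
  have hsum := Finset.card_filter_add_card_filter_not (s := (univ : Finset D))
    (fun d => 2 ≤ (rowF τ d + 0) % 4)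
  rw [Finset.card_univ, H.card] at hsum
  have e : univ.filter (fun d => ¬ 2 ≤ (rowF τ d + 0) % 4)
      = univ.filter (fun d => 2 ≤ (rowF τ d + 2) % 4) := by
    apply Finset.filter_congr
    intro d _
    omega
  rw [e] at hsum
  rcases Nat.mod_two_eq_zero_or_one (univ.filter (fun d => 2 ≤ (rowF τ d + 0) % 4)).card with h | h
  · exact main 0 h
  · exact main 2 (by omega)

end Zig

end Vale.Agent.P197
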